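import Vale.Agent.Lib.P254b.Main3

/-! # P254: the tensor power trick with joins

`r(K) = L_K^{2n} / L_{Δ_n}^{2n}` is multiplicative under joins, so the `(k+1)`-fold join of `K` has `r = r(K)^(k+1)` in
dimension `(k+1)(n+1) - 1`.  Hence an asymptotic form of the conjectured inequality implies the exact inequality in
every dimension. -/

namespace P254
open MeasureTheory

/-- The dimension `(k+1)(n+1) - 1` of the `(k+1)`-fold join of an `n`-dimensional set. -/
def dimJ (n : ℕ) : ℕ → ℕ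
  | 0 => n
  | k + 1 => dimJ n k + n + 1

theorem dimJ_succ_eq (n k : ℕ) : dimJ n k + 1 = (k + 1) * (n + 1) := by
  induction k with
  | zero => simp [dimJ]
  | succ k ih =>
    have : dimJ n (k + 1) = dimJ n k + n + 1 := rfl
    rw [this]
    calc dimJ n k + n + 1 + 1 = (dimJ n k + 1) + (n + 1) := by ring
      _ = (k + 1) * (n + 1) + (n + 1) := by rw [ih]
      _ = (k + 1 + 1) * (n + 1) := by ring

/-- The `(k+1)`-fold join `K * K * ... * K`. -/
def joinPow {n : ℕ} (K : Set (E n)) : (k : ℕ) → Set (E (dimJ n k))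
  | 0 => K
  | k + 1 => join (joinPow K k) K

theorem joinPow_props {n : ℕ} (K : Set (E n)) (hK : IsCompact K) (hc : Convex ℝ K) (hv : 0 < vol K)
    (k : ℕ) :
    IsCompact (joinPow K k) ∧ Convex ℝ (joinPow K k) ∧ 0 < vol (joinPow K k) ∧
      isoPow (joinPow K k) / cN (dimJ n k) = (isoPow K / cN n) ^ (k + 1) := by
  induction k with
  | zero => exact ⟨hK, hc, hv, by simp [joinPow, dimJ]⟩
  | succ k ih =>
    obtain ⟨h1, h2, h3, h4⟩ := ih
    obtain ⟨e, g1, g3, g2, -⟩ := main2.1 (dimJ n k) n (joinPow K k) K h1 hK h3 hv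
    refine ⟨g1, g2 h2 hc, g3, ?_⟩
    have : isoPow (joinPow K (k + 1)) / cN (dimJ n (k + 1))
        = isoPow (join (joinPow K k) K) / cN (dimJ n k + n + 1) := rfl
    rw [this, e, h4, pow_succ (isoPow K / cN n) (k + 1)]

/-- from `L_K ≤ (1+ε) L_{Δ_N}` to `L_K^{2N} ≤ (1+ε)^{2N} L_{Δ_N}^{2N}` -/
theorem isoPow_le_of_isoConst_le {N : ℕ} (hN : 1 ≤ N) (K : Set (E N)) (hK : IsCompact K) (ε : ℝ)
    (hε : 0 < ε) (h : isoConst K ≤ (1 + ε) * simplexConst N) :
    isoPow K ≤ (1 + ε) ^ (2 * N) * cN N := by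
  have hne : 2 * N ≠ 0 := by omega
  have hexp : (1 / (2 * (N : ℝ))) = (((2 * N : ℕ) : ℝ))⁻¹ := by
    push_cast
    rw [one_div]
  have h0 : 0 ≤ isoConst K := by
    unfold isoConst
    exact Real.rpow_nonneg (isoPow_nonneg K hK) _
  have h1 := pow_le_pow_left₀ h0 h (2 * N)
  rw [mul_pow] at h1
  unfold isoConst simplexConst at h1
  rw [hexp, Real.rpow_inv_natCast_pow (isoPow_nonneg K hK) hne,
    Real.rpow_inv_natCast_pow (cN_pos' N).le hne] at h1
  exact h1

/-- The asymptotic form of the inequality of the conjecture. -/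
def AsymConj : Prop :=
  ∀ ε : ℝ, 0 < ε → ∃ N0 : ℕ, ∀ N : ℕ, N0 ≤ N → ∀ K : Set (E N), IsCompact K → Convex ℝ K →
    (interior K).Nonempty → isoConst K ≤ (1 + ε) * simplexConst N

/-- The exact inequality in all dimensions. -/
def IneqConj : Prop :=
  ∀ n : ℕ, 1 ≤ n → ∀ K : Set (E n), IsCompact K → Convex ℝ K → (interior K).Nonempty →
    isoConst K ≤ simplexConst n

theorem le_one_of_forall_le_pow (r : ℝ) (M : ℕ) (h : ∀ ε : ℝ, 0 < ε → r ≤ (1 + ε) ^ M) : r ≤ 1 := by
  have hcont : Filter.Tendsto (fun ε : ℝ => (1 + ε) ^ M) (nhdsWithin 0 (Set.Ioi 0))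
      (nhds ((1 + 0) ^ M)) := by
    have : Continuous fun ε : ℝ => (1 + ε) ^ M := by fun_prop
    exact (this.tendsto 0).mono_left nhdsWithin_le_nhds
  have hev : ∀ᶠ ε in nhdsWithin (0 : ℝ) (Set.Ioi 0), r ≤ (1 + ε) ^ M := by
    filter_upwards [self_mem_nhdsWithin] with ε hε
    exact h ε hε
  have := ge_of_tendsto hcont hev
  simpa using this

theorem ineq_of_asym (h : AsymConj) : IneqConj := by
  intro n hn K hK hc hint
  have hv : 0 < vol K := (interior_nonempty_iff_vol_pos K hK hc).1 hint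
  rw [isoConst_le_iff hn K hK]
  have hr0 : 0 ≤ isoPow K / cN n := div_nonneg (isoPow_nonneg K hK) (cN_pos' n).le
  have key : isoPow K / cN n ≤ 1 := by
    refine le_one_of_forall_le_pow _ (2 * (n + 1)) fun ε hε => ?_
    obtain ⟨N0, hN0⟩ := h ε hε
    obtain ⟨g1, g2, g3, g4⟩ := joinPow_props K hK hc hv N0
    have hd := dimJ_succ_eq n N0
    have hdim : N0 ≤ dimJ n N0 := by nlinarith
    have hdim1 : 1 ≤ dimJ n N0 := by nlinarith
    have hint' : (interior (joinPow K N0)).Nonempty :=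
      (interior_nonempty_iff_vol_pos _ g1 g2).2 g3
    have h1 := isoPow_le_of_isoConst_le hdim1 _ g1 ε hε (hN0 _ hdim _ g1 g2 hint')
    have h2 : (isoPow K / cN n) ^ (N0 + 1) ≤ (1 + ε) ^ (2 * dimJ n N0) := by
      rw [← g4, div_le_iff₀ (cN_pos' _)]
      exact h1
    have h3 : (1 + ε) ^ (2 * dimJ n N0) ≤ ((1 + ε) ^ (2 * (n + 1))) ^ (N0 + 1) := by
      rw [← pow_mul]
      refine pow_le_pow_right₀ (by linarith) ?_
      nlinarith
    exact (pow_le_pow_iff_left₀ hr0 (by positivity) (Nat.succ_ne_zero N0)).1 (h2.trans h3)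
  rwa [div_le_one (cN_pos' n)] at key

theorem asym_of_ineq (h : IneqConj) : AsymConj := by
  intro ε hε
  refine ⟨1, fun N hN K hK hc hint => (h N hN K hK hc hint).trans ?_⟩
  have h0 : 0 ≤ simplexConst N := by
    unfold simplexConst
    exact Real.rpow_nonneg (cN_pos' N).le _
  nlinarith

theorem asym_iff_ineq : AsymConj ↔ IneqConj := ⟨ineq_of_asym, asym_of_ineq⟩

end P254
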