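import Vale.Agent.Lib.P254b.Const

/-! # P254 unit S1: `liminf L_{Δ_N} ≥ 1/e` -/

namespace P254

open Filter in
/-- S1.  `simplexConst N = (cN N) ^ (1 / (2 N))`, `cN N = (N!)^2 / ((N+1)^(N+1) (N+2)^N)`.
Route 1: `N! ≥ (N/e)^N` (`Stirling.le_factorial_stirling`, or induction, or `Real.exp` series
`N^N / N! ≤ exp N`: `Real.pow_div_factorial_le_exp`), so
`simplexConst N ≥ (N/e) / ((N+1)^((N+1)/(2N)) (N+2)^(1/2)) = e⁻¹ * (N/(N+1))^(1/2) * (N/(N+2))^(1/2) * (N+1)^(-1/(2N))`
and each of the three factors tends to `1` (`tendsto_rpow_div`-type lemmas, or `log (N+1) / N → 0`).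
Route 2: take logarithms, `log_cN` in `Const.lean`.
Route 3: `cN (k+1) = cN k * rNC k` (`cN_succ_eq`), `rNC` is monotone (`rNC_mono`) and tends to `exp (-2)`; Cesaro. -/
theorem exp_neg_one_le_simplexConst (ε : ℝ) (hε : 0 < ε) :
    ∃ N0 : ℕ, ∀ N : ℕ, N0 ≤ N → Real.exp (-1) ≤ (1 + ε) * simplexConst N := by
  set δ : ℝ := Real.log (1 + ε) with hδdef
  have hδ : 0 < δ := Real.log_pos (by linarith)
  have t1 : Tendsto (fun N : ℕ => Real.log ((N : ℝ) + 1) / (N : ℝ)) atTop (nhds 0) := by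
    have h := Real.tendsto_pow_log_div_mul_add_atTop 1 (-1) 1 one_ne_zero
    have h2 : Tendsto (fun N : ℕ => (N : ℝ) + 1) atTop atTop :=
      tendsto_atTop_add_const_right _ _ tendsto_natCast_atTop_atTop
    have h3 := h.comp h2
    refine h3.congr fun N => ?_
    simp only [Function.comp]
    rw [pow_one]
    congr 1
    ring
  have t2 : Tendsto (fun N : ℕ => (3 : ℝ) / (N : ℝ)) atTop (nhds 0) :=
    tendsto_const_div_atTop_nhds_zero_nat 3
  have h1 : ∀ᶠ N : ℕ in atTop, Real.log ((N : ℝ) + 1) / (N : ℝ) < δ := t1.eventually_lt_const hδ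
  have h2 : ∀ᶠ N : ℕ in atTop, (3 : ℝ) / (N : ℝ) < δ := t2.eventually_lt_const hδ
  have h3 : ∀ᶠ N : ℕ in atTop, 1 ≤ N := eventually_ge_atTop 1
  obtain ⟨N0, hN0⟩ := eventually_atTop.1 (h1.and (h2.and h3))
  refine ⟨N0, fun N hN => ?_⟩
  obtain ⟨a1, a2, a3⟩ := hN0 N hN
  have hNpos : (0 : ℝ) < N := by exact_mod_cast a3
  have e : (1 + ε) * simplexConst N = Real.exp (δ + Real.log (cN N) * (1 / (2 * (N : ℝ)))) := by
    rw [Real.exp_add, hδdef, Real.exp_log (by linarith), simplexConst,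
      Real.rpow_def_of_pos (cN_pos_C N)]
  rw [e]
  apply Real.exp_le_exp.2
  rw [log_cN]
  have hfact : (N : ℝ) * Real.log N ≤ N + Real.log (N.factorial : ℝ) := by
    have h := Real.pow_div_factorial_le_exp (N : ℝ) hNpos.le N
    have hf : (0 : ℝ) < (N.factorial : ℝ) := by positivity
    rw [div_le_iff₀ hf] at h
    have h' := Real.log_le_log (by positivity) h
    rw [Real.log_pow, Real.log_mul (Real.exp_pos _).ne' hf.ne', Real.log_exp] at h'
    exact h'
  have l1 : (N : ℝ) * Real.log ((N : ℝ) + 1) ≤ N * Real.log N + 1 := by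
    have h := Real.log_le_sub_one_of_pos (x := ((N : ℝ) + 1) / N) (by positivity)
    rw [Real.log_div (by positivity) hNpos.ne'] at h
    have e1 : ((N : ℝ) + 1) / N - 1 = 1 / N := by field_simp; ring
    rw [e1] at h
    have h' := mul_le_mul_of_nonneg_left h hNpos.le
    have e2 : (N : ℝ) * (1 / N) = 1 := by field_simp
    rw [e2] at h'
    linarith
  have l2 : (N : ℝ) * Real.log ((N : ℝ) + 2) ≤ N * Real.log N + 2 := by
    have h := Real.log_le_sub_one_of_pos (x := ((N : ℝ) + 2) / N) (by positivity)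
    rw [Real.log_div (by positivity) hNpos.ne'] at h
    have e1 : ((N : ℝ) + 2) / N - 1 = 2 / N := by field_simp; ring
    rw [e1] at h
    have h' := mul_le_mul_of_nonneg_left h hNpos.le
    have e2 : (N : ℝ) * (2 / N) = 2 := by field_simp
    rw [e2] at h'
    linarith
  have key : -2 * (N : ℝ) - 3 - Real.log ((N : ℝ) + 1) ≤
      2 * Real.log (N.factorial : ℝ) - ((N : ℝ) + 1) * Real.log ((N : ℝ) + 1)
        - (N : ℝ) * Real.log ((N : ℝ) + 2) := by
    linarith
  have hpos : (0 : ℝ) ≤ 1 / (2 * (N : ℝ)) := by positivity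
  have key2 := mul_le_mul_of_nonneg_right key hpos
  have e3 : (-2 * (N : ℝ) - 3 - Real.log ((N : ℝ) + 1)) * (1 / (2 * (N : ℝ))) =
      -1 - (3 / (N : ℝ)) / 2 - (Real.log ((N : ℝ) + 1) / (N : ℝ)) / 2 := by
    field_simp
  rw [e3] at key2
  linarith

end P254
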