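import Vale.Agent.Lib.P254b.Const

/-! # P254 unit S2: `L_{Δ_N} ≤ 1/e` -/

namespace P254

theorem log_cN_succ_le (k : ℕ) : Real.log (cN (k + 1)) ≤ Real.log (cN k) - 2 := by
  rw [log_cN, log_cN]
  have hf : Real.log ((k + 1).factorial : ℝ) = Real.log ((k : ℝ) + 1) + Real.log (k.factorial : ℝ) := by
    rw [Nat.factorial_succ]; push_cast; rw [Real.log_mul (by positivity) (by positivity)]
  rw [hf]
  push_cast
  have e1 : (k : ℝ) + 1 + 1 = k + 2 := by ring
  have e2 : (k : ℝ) + 1 + 2 = k + 3 := by ring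
  rw [e1, e2]
  set A := Real.log ((k : ℝ) + 1) with hA
  set B := Real.log ((k : ℝ) + 2) with hB
  set C := Real.log ((k : ℝ) + 3) with hC
  set F := Real.log (k.factorial : ℝ) with hF
  have k1 : (0 : ℝ) < (k : ℝ) + 1 := by positivity
  have k2 : (0 : ℝ) < (k : ℝ) + 2 := by positivity
  have k3 : (0 : ℝ) < (k : ℝ) + 3 := by positivity
  have h1 : 2 < ((k : ℝ) + 2) * (C - A) := by
    have hx : (0 : ℝ) < 2 / ((k : ℝ) + 1) := by positivity
    have := Real.lt_log_one_add_of_pos hx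
    have e3 : 1 + 2 / ((k : ℝ) + 1) = ((k : ℝ) + 3) / ((k : ℝ) + 1) := by field_simp; ring
    rw [e3, Real.log_div k3.ne' k1.ne'] at this
    have e4 : 2 * (2 / ((k : ℝ) + 1)) / (2 / ((k : ℝ) + 1) + 2) = 2 / ((k : ℝ) + 2) := by
      field_simp; ring
    rw [e4, div_lt_iff₀ k2] at this
    linarith
  have h2 : A + C ≤ 2 * B := by
    have : Real.log (((k : ℝ) + 1) * ((k : ℝ) + 3)) ≤ Real.log (((k : ℝ) + 2) ^ 2) :=
      Real.log_le_log (by positivity) (by nlinarith)
    rw [Real.log_mul k1.ne' k3.ne', Real.log_pow] at this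
    push_cast at this
    linarith
  nlinarith

theorem log_cN_le (N : ℕ) : Real.log (cN N) ≤ -2 * N := by
  induction N with
  | zero => simp [cN_zero_C]
  | succ k ih =>
    have := log_cN_succ_le k
    push_cast
    linarith

theorem simplexConst_le_exp_neg_one (N : ℕ) (hN : 1 ≤ N) : simplexConst N ≤ Real.exp (-1) := by
  have hN' : (0 : ℝ) < N := by exact_mod_cast hN
  have hc := cN_pos_C N
  unfold simplexConst
  rw [Real.rpow_def_of_pos hc]
  apply Real.exp_le_exp.2
  have := log_cN_le N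
  have h2 : Real.log (cN N) * (1 / (2 * (N : ℝ))) ≤ (-2 * N) * (1 / (2 * (N : ℝ))) :=
    mul_le_mul_of_nonneg_right this (by positivity)
  have h3 : (-2 * (N : ℝ)) * (1 / (2 * (N : ℝ))) = -1 := by field_simp
  linarith

end P254
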