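import Vale.Agent.Lib.P254c.Asym
import Vale.Agent.Lib.P254c.AsymLimA
import Vale.Agent.Lib.P254c.AsymLimB

/-! # P254: the inequality of the conjecture is equivalent to `limsup_N sup_K L_K ≤ 1/e` -/

namespace P254

/-- `limsup_N sup_K L_K ≤ 1/e`. -/
def AbsConj : Prop :=
  ∀ δ : ℝ, 0 < δ → ∃ N0 : ℕ, ∀ N : ℕ, N0 ≤ N → ∀ K : Set (E N), IsCompact K → Convex ℝ K →
    (interior K).Nonempty → isoConst K ≤ Real.exp (-1) + δ

theorem asym_of_abs (h : AbsConj) : AsymConj := by
  intro ε hε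
  have h1 : 0 < min (ε / 3) 1 := lt_min (by positivity) one_pos
  have h2 : min (ε / 3) 1 ≤ ε / 3 := min_le_left _ _
  have h3 : min (ε / 3) 1 ≤ 1 := min_le_right _ _
  generalize min (ε / 3) 1 = η at h1 h2 h3
  obtain ⟨N1, hN1⟩ := h (η * Real.exp (-1)) (mul_pos h1 (Real.exp_pos _))
  obtain ⟨N2, hN2⟩ := exp_neg_one_le_simplexConst η h1
  refine ⟨max N1 N2, fun N hN K hK hc hint => ?_⟩
  have a := hN1 N (le_of_max_le_left hN) K hK hc hint
  have b := hN2 N (le_of_max_le_right hN)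
  have s0 : 0 ≤ simplexConst N := by
    unfold simplexConst
    exact Real.rpow_nonneg (cN_pos' N).le _
  have hsq : (1 + η) * (1 + η) ≤ 1 + ε := by nlinarith
  calc isoConst K ≤ Real.exp (-1) + η * Real.exp (-1) := a
    _ = (1 + η) * Real.exp (-1) := by ring
    _ ≤ (1 + η) * ((1 + η) * simplexConst N) := mul_le_mul_of_nonneg_left b (by linarith)
    _ = ((1 + η) * (1 + η)) * simplexConst N := by ring
    _ ≤ (1 + ε) * simplexConst N := mul_le_mul_of_nonneg_right hsq s0

theorem abs_of_ineq (h : IneqConj) : AbsConj := by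
  intro δ hδ
  refine ⟨1, fun N hN K hK hc hint => ?_⟩
  have h1 := h N hN K hK hc hint
  have h2 := simplexConst_le_exp_neg_one N hN
  linarith

theorem abs_iff_ineq : AbsConj ↔ IneqConj :=
  ⟨fun h => ineq_of_asym (asym_of_abs h), abs_of_ineq⟩

end P254
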