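import Vale.Agent.Lib.P254c.AsymLimA
import Vale.Agent.Lib.P254c.AsymLimB
import Vale.Agent.Lib.P254c.Asym

namespace P254

/-- sharp asymptotic slicing bound: `limsup_N sup_K L_K ≤ 1/e`. -/
def SharpAsym : Prop :=
  ∀ ε : ℝ, 0 < ε → ∃ N0 : ℕ, ∀ N : ℕ, N0 ≤ N → ∀ K : Set (E N), IsCompact K → Convex ℝ K →
    (interior K).Nonempty → isoConst K ≤ (1 + ε) * Real.exp (-1)

theorem sharpAsym_iff_ineq : SharpAsym ↔ IneqConj := by
  constructor
  · intro h
    apply ineq_of_asym
    intro ε hε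
    -- choose δ with (1+δ)^2 ≤ 1+ε : δ = min 1 (ε/3)
    set δ : ℝ := min 1 (ε / 3) with hδ
    have hδ0 : 0 < δ := lt_min one_pos (by positivity)
    have hδ1 : δ ≤ 1 := min_le_left _ _
    have hδ2 : δ ≤ ε / 3 := min_le_right _ _
    have hsq : (1 + δ) * (1 + δ) ≤ 1 + ε := by nlinarith
    obtain ⟨N1, h1⟩ := h δ hδ0
    obtain ⟨N2, h2⟩ := exp_neg_one_le_simplexConst δ hδ0
    refine ⟨max N1 N2, fun N hN K hK hc hint => ?_⟩
    have a1 := h1 N (le_trans (le_max_left _ _) hN) K hK hc hint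
    have a2 := h2 N (le_trans (le_max_right _ _) hN)
    have hs0 : 0 ≤ simplexConst N := by
      unfold simplexConst; exact Real.rpow_nonneg (cN_pos' N).le _
    calc isoConst K ≤ (1 + δ) * Real.exp (-1) := a1
      _ ≤ (1 + δ) * ((1 + δ) * simplexConst N) := mul_le_mul_of_nonneg_left a2 (by linarith)
      _ = ((1 + δ) * (1 + δ)) * simplexConst N := by ring
      _ ≤ (1 + ε) * simplexConst N := mul_le_mul_of_nonneg_right hsq hs0
  · intro h ε hε
    refine ⟨1, fun N hN K hK hc hint => ?_⟩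
    have a1 := h N hN K hK hc hint
    have a2 := simplexConst_le_exp_neg_one N hN
    have : 0 < Real.exp (-1) := Real.exp_pos _
    nlinarith

end P254
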