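import Vale.Agent.Lib.P254b.Main3

/-!
# P254 part 4 (free sums): definitions

`freeG K K' = {((1-t) x, t y)} = conv (K × 0 ∪ 0 × K')` for convex `K ∋ 0`, `K' ∋ 0`.
Aim: `isoPow (free K K') / cN (n+m) ≤ (isoPow K / cN n) * (isoPow K' / cN m)`.
-/

namespace P254

open MeasureTheory
open scoped Pointwise

section
variable {ι κ : Type*} [Fintype ι] [Fintype κ]

/-- The free sum `{((1-t) x, t y) : 0 ≤ t ≤ 1, x ∈ K, y ∈ K'}`. -/
def freeG (K : Set (ι → ℝ)) (K' : Set (κ → ℝ)) : Set (ι ⊕ κ → ℝ) :=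
  {z | ∃ t : ℝ, 0 ≤ t ∧ t ≤ 1 ∧ ∃ x ∈ K, ∃ y ∈ K', z = Sum.elim ((1 - t) • x) (t • y)}

/-- The fibre over `w` of the pyramid over `K`. -/
def secP (K : Set (ι → ℝ)) (w : ι → ℝ) : Set ℝ := {t | 0 ≤ t ∧ t ≤ 1 ∧ w ∈ (1 - t) • K}

/-- The fibre over `w` of the join of `K` and `K'`. -/
def secJ (K : Set (ι → ℝ)) (K' : Set (κ → ℝ)) (w : ι ⊕ κ → ℝ) : Set ℝ :=
  {t | 0 ≤ t ∧ t ≤ 1 ∧ (fun i => w (Sum.inl i)) ∈ (1 - t) • K ∧ (fun j => w (Sum.inr j)) ∈ t • K'}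

/-- The length of `secP K w` (it is `1 - gauge K w` on `K`). -/
noncomputable def aP (K : Set (ι → ℝ)) (w : ι → ℝ) : ℝ := (volume (secP K w)).toReal

/-- The covariance matrix of a free sum in terms of the covariances `S, S'` and centroids `b, b'`
(`n, m` are the dimensions as real numbers). -/
noncomputable def freeCovM (n m : ℝ) (S : Matrix ι ι ℝ) (S' : Matrix κ κ ℝ) (b : ι → ℝ) (b' : κ → ℝ) :
    Matrix (ι ⊕ κ) (ι ⊕ κ) ℝ :=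
  Matrix.fromBlocks
    (Matrix.of fun i k => (n + 1) * (n + 2) / ((n + m + 1) * (n + m + 2)) * S i k
      + (n + 1) * m / ((n + m + 1) ^ 2 * (n + m + 2)) * (b i * b k))
    (Matrix.of fun i j => -((n + 1) * (m + 1) / ((n + m + 1) ^ 2 * (n + m + 2))) * (b i * b' j))
    (Matrix.of fun j i => -((n + 1) * (m + 1) / ((n + m + 1) ^ 2 * (n + m + 2))) * (b' j * b i))
    (Matrix.of fun j l => (m + 1) * (m + 2) / ((n + m + 1) * (n + m + 2)) * S' j l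
      + (m + 1) * n / ((n + m + 1) ^ 2 * (n + m + 2)) * (b' j * b' l))

end

/-- The free sum of `K ⊆ ℝ^n` and `K' ⊆ ℝ^m` in `ℝ^(n+m)`: all `((1-t) x, t y)`, `0 ≤ t ≤ 1`, `x ∈ K`,
`y ∈ K'`.  For convex `K ∋ 0`, `K' ∋ 0` it is the convex hull of `K × {0} ∪ {0} × K'`. -/
def free {n m : ℕ} (K : Set (E n)) (K' : Set (E m)) : Set (E (n + m)) :=
  {z | ∃ t : ℝ, 0 ≤ t ∧ t ≤ 1 ∧ ∃ x ∈ K, ∃ y ∈ K', z = Fin.append ((1 - t) • x) (t • y)}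

end P254
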