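import Vale.Agent.Lib.P254c.FDefs

/-! # P254c unit F13: the constants -/

namespace P254

theorem cN_free (n m : ℕ) :
    (((n : ℝ) + 1) * ((n : ℝ) + 2) / (((n : ℝ) + (m : ℝ) + 1) * ((n : ℝ) + (m : ℝ) + 2))) ^ n
      * (((m : ℝ) + 1) * ((m : ℝ) + 2) / (((n : ℝ) + (m : ℝ) + 1) * ((n : ℝ) + (m : ℝ) + 2))) ^ m
      * ((((n : ℝ) + 1) * ((m : ℝ) + 1)) / ((n : ℝ) + (m : ℝ) + 1)) * (cN n * cN m)
      = cN (n + m) * (((n.factorial : ℝ) * (m.factorial : ℝ)) / ((n + m).factorial : ℝ)) ^ 2 := by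
  unfold cN
  have hF : ((n.factorial : ℝ)) ≠ 0 := by positivity
  have hG : ((m.factorial : ℝ)) ≠ 0 := by positivity
  have hH : (((n + m).factorial : ℝ)) ≠ 0 := by positivity
  generalize (n.factorial : ℝ) = F at *
  generalize (m.factorial : ℝ) = G at *
  generalize ((n + m).factorial : ℝ) = H at *
  push_cast
  have ha : ((n : ℝ) + 1) ≠ 0 := by positivity
  have hb : ((n : ℝ) + 2) ≠ 0 := by positivity
  have hc : ((m : ℝ) + 1) ≠ 0 := by positivity
  have hd : ((m : ℝ) + 2) ≠ 0 := by positivity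
  have hs : ((n : ℝ) + m + 1) ≠ 0 := by positivity
  have ht : ((n : ℝ) + m + 2) ≠ 0 := by positivity
  generalize (n : ℝ) + 1 = a at *
  generalize (n : ℝ) + 2 = b at *
  generalize (m : ℝ) + 1 = c at *
  generalize (m : ℝ) + 2 = d at *
  generalize (n : ℝ) + m + 1 = s at *
  generalize (n : ℝ) + m + 2 = t at *
  simp only [div_pow, mul_pow, pow_succ, pow_add, pow_zero]
  field_simp

end P254
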