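import Vale.Agent.Lib.P254c.FreeMom

/-! # P254c unit F8: the covariance matrix of a free sum -/

namespace P254
open MeasureTheory
open scoped Pointwise
variable {ι κ : Type*} [Fintype ι] [Fintype κ]

/-- F8.  `covG_eq` for `freeG K K'` (volume positive by `volG_freeG`), `K`, `K'`; the four blocks from `FreeMom.lean`
(`m2G_comm` for the lower left block); then `field_simp; ring`.  Compare `P254b/JoinCov.lean`. -/
theorem covG_freeG (K : Set (ι → ℝ)) (K' : Set (κ → ℝ)) (hK : IsCompact K) (hK' : IsCompact K')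
    (hc : Convex ℝ K) (hc' : Convex ℝ K') (h0 : (0 : ι → ℝ) ∈ K) (h0' : (0 : κ → ℝ) ∈ K')
    (hv : 0 < volG K) (hv' : 0 < volG K') :
    covG (freeG K K') = freeCovM (Fintype.card ι : ℝ) (Fintype.card κ : ℝ) (covG K) (covG K')
      (cenG K) (cenG K') := by
  have hJ := isCompact_freeG K K' hK hK'
  have hvJ : volG (freeG K K') ≠ 0 := by
    rw [volG_freeG K K' hK hK' hc hc' h0 h0']
    have h1 : ((Fintype.card ι).factorial : ℝ) ≠ 0 := by positivity
    have h2 : ((Fintype.card κ).factorial : ℝ) ≠ 0 := by positivity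
    have h3 : ((Fintype.card ι + Fintype.card κ).factorial : ℝ) ≠ 0 := by positivity
    exact mul_ne_zero (div_ne_zero (mul_ne_zero h1 h2) h3) (mul_ne_zero hv.ne' hv'.ne')
  have hN1 : ((Fintype.card ι : ℝ) + Fintype.card κ + 1) ≠ 0 := by positivity
  have hN2 : ((Fintype.card ι : ℝ) + Fintype.card κ + 2) ≠ 0 := by positivity
  ext p q
  rw [covG_eq _ hJ hvJ]
  rcases p with i | i <;> rcases q with j | j
  · rw [m2G_freeG_xx K K' hK hK' hc hc' h0 h0' hv hv', cenG_freeG_x K K' hK hK' hc hc' h0 h0' hv hv',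
      cenG_freeG_x K K' hK hK' hc hc' h0 h0' hv hv']
    simp only [freeCovM, Matrix.fromBlocks_apply₁₁, Matrix.of_apply, covG_eq K hK hv.ne']
    field_simp
    ring
  · rw [m2G_freeG_xy K K' hK hK' hc hc' h0 h0' hv hv', cenG_freeG_x K K' hK hK' hc hc' h0 h0' hv hv',
      cenG_freeG_y K K' hK hK' hc hc' h0 h0' hv hv']
    simp only [freeCovM, Matrix.fromBlocks_apply₁₂, Matrix.of_apply]
    field_simp
    ring
  · rw [m2G_comm, m2G_freeG_xy K K' hK hK' hc hc' h0 h0' hv hv',
      cenG_freeG_x K K' hK hK' hc hc' h0 h0' hv hv', cenG_freeG_y K K' hK hK' hc hc' h0 h0' hv hv']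
    simp only [freeCovM, Matrix.fromBlocks_apply₂₁, Matrix.of_apply]
    field_simp
    ring
  · rw [m2G_freeG_yy K K' hK hK' hc hc' h0 h0' hv hv', cenG_freeG_y K K' hK hK' hc hc' h0 h0' hv hv',
      cenG_freeG_y K K' hK hK' hc hc' h0 h0' hv hv']
    simp only [freeCovM, Matrix.fromBlocks_apply₂₂, Matrix.of_apply, covG_eq K' hK' hv'.ne']
    field_simp
    ring

end P254
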