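import Vale.Agent.Lib.P254c.FDefs

/-! # P254c unit F12a: the determinant of `freeCovM` (rank two update of a block diagonal matrix) -/

namespace P254

/-- determinant of a rank two update -/
theorem det_rank_two {I : Type*} [Fintype I] [DecidableEq I] (A X : Matrix I I ℝ) (hAX : A * X = 1)
    (u₁ v₁ u₂ v₂ : I → ℝ) :
    (A + Matrix.vecMulVec u₁ v₁ + Matrix.vecMulVec u₂ v₂).det
      = A.det * ((1 + v₁ ⬝ᵥ X.mulVec u₁) * (1 + v₂ ⬝ᵥ X.mulVec u₂)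
          - (v₁ ⬝ᵥ X.mulVec u₂) * (v₂ ⬝ᵥ X.mulVec u₁)) := by
  set U : Matrix I (Fin 2) ℝ := Matrix.of fun x k => ![u₁ x, u₂ x] k with hU
  set V : Matrix (Fin 2) I ℝ := Matrix.of fun k x => ![v₁ x, v₂ x] k with hV
  have h1 : A + Matrix.vecMulVec u₁ v₁ + Matrix.vecMulVec u₂ v₂ = A * (1 + (X * U) * V) := by
    rw [Matrix.mul_add, Matrix.mul_one, Matrix.mul_assoc X, ← Matrix.mul_assoc A, hAX,
      Matrix.one_mul, add_assoc]
    congr 1
    ext x y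
    simp [hU, hV, Matrix.mul_apply, Fin.sum_univ_two, Matrix.vecMulVec_apply]
  have e : ∀ k l, (V * (X * U)) k l = (fun x => V k x) ⬝ᵥ X.mulVec (fun y => U y l) :=
    fun k l => rfl
  have V0 : (fun x => V 0 x) = v₁ := rfl
  have V1 : (fun x => V 1 x) = v₂ := rfl
  have U0 : (fun y => U y 0) = u₁ := rfl
  have U1 : (fun y => U y 1) = u₂ := rfl
  rw [h1, Matrix.det_mul, Matrix.det_one_add_mul_comm, Matrix.det_fin_two]
  simp only [Matrix.add_apply, e, V0, V1, U0, U1, Matrix.one_apply_eq]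
  simp

variable {ι κ : Type*} [Fintype ι] [Fintype κ] [DecidableEq ι] [DecidableEq κ]

/-- F12a.  With `α = (n+1)(n+2)/((N+1)(N+2))`, `β = (m+1)(m+2)/((N+1)(N+2))`, `N = n+m`, `q = 1/((N+1)^2 (N+2))`,
`D = fromBlocks (α S) 0 0 (β S')`, `X = fromBlocks (α⁻¹ S⁻¹) 0 0 (β⁻¹ S'⁻¹)` (`D * X = 1`), `U : (ι ⊕ κ) × Fin 2` with columns
`(b, 0)`, `(0, b')` and `C = q !![(n+1) m, -(n+1)(m+1); -(n+1)(m+1), (m+1) n]`:
`freeCovM = D + U C Uᵀ = D (1 + (X U) (C Uᵀ))`, so `det = det D * det (1 + (C Uᵀ) (X U))` (`Matrix.det_one_add_mul_comm`),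
`Uᵀ X U = diag (s/α, s'/β)`, `det D = α^|ι| β^|κ| det S det S'` (`Matrix.det_fromBlocks_zero₂₁`, `Matrix.det_smul`),
and the 2 x 2 determinant is `1 + m s/((N+1)(n+2)) + n s'/((N+1)(m+2)) - s s'/((N+1)(n+2)(m+2))`.
(Alternative: two rank one updates, `Matrix.det_add_replicateCol_mul_replicateRow`.) -/
theorem det_freeCovM (n m : ℝ) (hn : 0 ≤ n) (hm : 0 ≤ m) (S : Matrix ι ι ℝ) (S' : Matrix κ κ ℝ)
    (hS : IsUnit S.det) (hS' : IsUnit S'.det) (b : ι → ℝ) (b' : κ → ℝ) :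
    (freeCovM n m S S' b b').det
      = ((n + 1) * (n + 2) / ((n + m + 1) * (n + m + 2))) ^ (Fintype.card ι)
        * ((m + 1) * (m + 2) / ((n + m + 1) * (n + m + 2))) ^ (Fintype.card κ)
        * S.det * S'.det
        * (1 + (m * (m + 2) * (b ⬝ᵥ (S⁻¹.mulVec b)) + n * (n + 2) * (b' ⬝ᵥ (S'⁻¹.mulVec b'))
            - (b ⬝ᵥ (S⁻¹.mulVec b)) * (b' ⬝ᵥ (S'⁻¹.mulVec b')))
          / ((n + m + 1) * (n + 2) * (m + 2))) := by
  set α : ℝ := (n + 1) * (n + 2) / ((n + m + 1) * (n + m + 2)) with hα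
  set β : ℝ := (m + 1) * (m + 2) / ((n + m + 1) * (n + m + 2)) with hβ
  set p₁ : ℝ := (n + 1) * m / ((n + m + 1) ^ 2 * (n + m + 2)) with hp₁
  set p₂ : ℝ := (m + 1) * n / ((n + m + 1) ^ 2 * (n + m + 2)) with hp₂
  set r : ℝ := (n + 1) * (m + 1) / ((n + m + 1) ^ 2 * (n + m + 2)) with hr
  set s : ℝ := b ⬝ᵥ (S⁻¹.mulVec b) with hs
  set s' : ℝ := b' ⬝ᵥ (S'⁻¹.mulVec b') with hs'
  have hα0 : α ≠ 0 := by rw [hα]; positivity
  have hβ0 : β ≠ 0 := by rw [hβ]; positivity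
  set D : Matrix (ι ⊕ κ) (ι ⊕ κ) ℝ := Matrix.fromBlocks (α • S) 0 0 (β • S') with hD
  set X : Matrix (ι ⊕ κ) (ι ⊕ κ) ℝ := Matrix.fromBlocks (α⁻¹ • S⁻¹) 0 0 (β⁻¹ • S'⁻¹) with hX
  have hDX : D * X = 1 := by
    rw [hD, hX, Matrix.fromBlocks_multiply]
    simp only [Matrix.zero_mul, Matrix.mul_zero, add_zero, zero_add, Matrix.smul_mul,
      Matrix.mul_smul, Matrix.mul_nonsing_inv _ hS, Matrix.mul_nonsing_inv _ hS', smul_smul,
      inv_mul_cancel₀ hα0, inv_mul_cancel₀ hβ0, one_smul, smul_zero, Matrix.fromBlocks_one]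
  set u₁ : ι ⊕ κ → ℝ := Sum.elim b 0 with hu₁
  set u₂ : ι ⊕ κ → ℝ := Sum.elim 0 b' with hu₂
  set v₁ : ι ⊕ κ → ℝ := Sum.elim (p₁ • b) (-r • b') with hv₁
  set v₂ : ι ⊕ κ → ℝ := Sum.elim (-r • b) (p₂ • b') with hv₂
  have hM : freeCovM n m S S' b b' = D + Matrix.vecMulVec u₁ v₁ + Matrix.vecMulVec u₂ v₂ := by
    ext x y
    rcases x with i | j <;> rcases y with k | l <;>
      simp [freeCovM, hD, hu₁, hu₂, hv₁, hv₂, Matrix.vecMulVec_apply, ← hα, ← hβ, ← hp₁, ← hp₂,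
        ← hr] <;> ring
  have hXu₁ : X.mulVec u₁ = Sum.elim (α⁻¹ • S⁻¹.mulVec b) (0 : κ → ℝ) := by
    rw [hX, hu₁, Matrix.fromBlocks_mulVec]
    simp [Matrix.smul_mulVec]
  have hXu₂ : X.mulVec u₂ = Sum.elim (0 : ι → ℝ) (β⁻¹ • S'⁻¹.mulVec b') := by
    rw [hX, hu₂, Matrix.fromBlocks_mulVec]
    simp [Matrix.smul_mulVec]
  have dot_elim : ∀ (a c : ι → ℝ) (a' c' : κ → ℝ),
      Sum.elim a a' ⬝ᵥ Sum.elim c c' = a ⬝ᵥ c + a' ⬝ᵥ c' := by
    intro a c a' c'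
    simp [dotProduct, Fintype.sum_sum_type]
  have d11 : v₁ ⬝ᵥ X.mulVec u₁ = p₁ * s / α := by
    rw [hXu₁, hv₁, hs]
    simp only [dot_elim, smul_dotProduct, dotProduct_smul, dotProduct_zero, smul_eq_mul]
    field_simp
    ring
  have d12 : v₁ ⬝ᵥ X.mulVec u₂ = -r * s' / β := by
    rw [hXu₂, hv₁, hs']
    simp only [dot_elim, smul_dotProduct, dotProduct_smul, dotProduct_zero, smul_eq_mul]
    field_simp
    ring
  have d21 : v₂ ⬝ᵥ X.mulVec u₁ = -r * s / α := by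
    rw [hXu₁, hv₂, hs]
    simp only [dot_elim, smul_dotProduct, dotProduct_smul, dotProduct_zero, smul_eq_mul]
    field_simp
    ring
  have d22 : v₂ ⬝ᵥ X.mulVec u₂ = p₂ * s' / β := by
    rw [hXu₂, hv₂, hs']
    simp only [dot_elim, smul_dotProduct, dotProduct_smul, dotProduct_zero, smul_eq_mul]
    field_simp
    ring
  have hdetD : D.det = α ^ Fintype.card ι * β ^ Fintype.card κ * S.det * S'.det := by
    rw [hD, Matrix.det_fromBlocks_zero₂₁, Matrix.det_smul, Matrix.det_smul]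
    ring
  rw [hM, det_rank_two D X hDX, d11, d12, d21, d22, hdetD]
  congr 1
  have h1 : p₁ / α = m / ((n + m + 1) * (n + 2)) := by
    rw [hp₁, hα]; field_simp
  have h2 : p₂ / β = n / ((n + m + 1) * (m + 2)) := by
    rw [hp₂, hβ]; field_simp
  have h3 : r / α = (m + 1) / ((n + m + 1) * (n + 2)) := by
    rw [hr, hα]; field_simp
  have h4 : r / β = (n + 1) / ((n + m + 1) * (m + 2)) := by
    rw [hr, hβ]; field_simp
  have e1 : p₁ * s / α = p₁ / α * s := by ring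
  have e2 : p₂ * s' / β = p₂ / β * s' := by ring
  have e3 : -r * s' / β = -(r / β) * s' := by ring
  have e4 : -r * s / α = -(r / α) * s := by ring
  rw [e1, e2, e3, e4, h1, h2, h3, h4]
  field_simp
  ring

end P254
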