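import Vale.Agent.Lib.P254c.FDefs

/-! # P254c unit F12b: from `(c·b)^2 ≤ C cᵀ S c` for all `c` to `bᵀ S⁻¹ b ≤ C` -/

namespace P254
variable {ι : Type*} [Fintype ι] [DecidableEq ι]

/-- F12b.  Take `c = S⁻¹ b`: `c·b = s`, `cᵀ S c = cᵀ b = s` (`S * S⁻¹ = 1`), so `s^2 ≤ C s`; and `s = cᵀ S c ≥ 0`. -/
theorem sQ_le (S : Matrix ι ι ℝ) (hS : S.PosDef) (b : ι → ℝ) (C : ℝ) (hC : 0 ≤ C)
    (hb : ∀ c : ι → ℝ, (∑ i, c i * b i) ^ 2 ≤ C * ∑ i, ∑ j, c i * (S i j * c j)) :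
    0 ≤ b ⬝ᵥ (S⁻¹.mulVec b) ∧ b ⬝ᵥ (S⁻¹.mulVec b) ≤ C := by
  set c : ι → ℝ := S⁻¹.mulVec b with hc
  have hdet : IsUnit S.det := (Matrix.isUnit_iff_isUnit_det S).1 hS.isUnit
  have hSc : S.mulVec c = b := by
    rw [hc, Matrix.mulVec_mulVec, Matrix.mul_nonsing_inv S hdet, Matrix.one_mulVec]
  set s : ℝ := b ⬝ᵥ c with hs
  have h1 : ∑ i, c i * b i = s := by
    rw [hs, dotProduct]
    exact Finset.sum_congr rfl (fun i _ => mul_comm _ _)
  have h2 : ∑ i, ∑ j, c i * (S i j * c j) = s := by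
    rw [← h1]
    apply Finset.sum_congr rfl
    intro i _
    rw [← Finset.mul_sum]
    congr 1
    have := congrFun hSc i
    rw [← this]
    rfl
  have h3 := hb c
  rw [h1, h2] at h3
  have hs0 : 0 ≤ s := by
    have := hS.posSemidef.dotProduct_mulVec_nonneg c
    rw [hSc] at this
    simp only [star_trivial] at this
    rw [hs, dotProduct_comm]
    exact this
  refine ⟨hs0, ?_⟩
  rcases hs0.lt_or_eq with h | h
  · nlinarith
  · rw [← h]; exact hC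

end P254
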