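import Vale.Agent.Lib.P254c.FDefs

/-! # P254c unit F6: compactness, convexity, reindexing of free sums -/

namespace P254
open MeasureTheory
open scoped Pointwise

section
variable {ι κ : Type*} [Fintype ι] [Fintype κ]

/-- F6a. continuous image of `[0,1] × K × K'` (copy `isCompact_joinG`). -/
theorem isCompact_freeG (K : Set (ι → ℝ)) (K' : Set (κ → ℝ)) (hK : IsCompact K)
    (hK' : IsCompact K') : IsCompact (freeG K K') := by
  let g : ℝ × (ι → ℝ) × (κ → ℝ) → (ι ⊕ κ → ℝ) := fun w =>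
    Sum.elim ((1 - w.1) • w.2.1) (w.1 • w.2.2)
  have hg : Continuous g := by
    refine continuous_pi (fun i => ?_)
    rcases i with i | j
    · simp only [g, Sum.elim_inl, Pi.smul_apply, smul_eq_mul]; fun_prop
    · simp only [g, Sum.elim_inr, Pi.smul_apply, smul_eq_mul]; fun_prop
  have himg : freeG K K' = g '' (Set.Icc (0 : ℝ) 1 ×ˢ K ×ˢ K') := by
    ext z
    constructor
    · rintro ⟨t, ht0, ht1, x, hx, y, hy, rfl⟩
      exact ⟨(t, x, y), ⟨⟨ht0, ht1⟩, hx, hy⟩, rfl⟩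
    · rintro ⟨⟨t, x, y⟩, ⟨⟨ht0, ht1⟩, hx, hy⟩, rfl⟩
      exact ⟨t, ht0, ht1, x, hx, y, hy, rfl⟩
  rw [himg]
  exact (isCompact_Icc.prod (hK.prod hK')).image hg

end

/-- F6b. copy of `prod_reindex` / `join_reindex` in `P254b/Bridge.lean`. -/
theorem free_reindex {n m : ℕ} (K : Set (E n)) (K' : Set (E m)) :
    (fun z : E (n + m) => z ∘ (finSumFinEquiv : Fin n ⊕ Fin m ≃ Fin (n + m))) '' (free K K')
      = freeG K K' := by
  apply Set.Subset.antisymm
  · rintro _ ⟨z, ⟨t, h0, h1, x, hx, y, hy, rfl⟩, rfl⟩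
    exact ⟨t, h0, h1, x, hx, y, hy, append_comp_finSum _ _⟩
  · rintro _ ⟨t, h0, h1, x, hx, y, hy, rfl⟩
    exact ⟨_, ⟨t, h0, h1, x, hx, y, hy, rfl⟩, append_comp_finSum _ _⟩

/-- F6c. copy of `isCompact_join` in `P254b/Convex.lean`. -/
theorem isCompact_free {n m : ℕ} (K : Set (E n)) (K' : Set (E m)) (hK : IsCompact K)
    (hK' : IsCompact K') : IsCompact (free K K') := by
  have hc : Continuous (fun p : ℝ × E n × E m =>
      Fin.append ((1 - p.1) • p.2.1) (p.1 • p.2.2)) := by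
    refine continuous_append_V ?_ ?_
    · exact (continuous_const.sub continuous_fst).smul (continuous_fst.comp continuous_snd)
    · exact continuous_fst.smul (continuous_snd.comp continuous_snd)
  have himg : free K K' = (fun p : ℝ × E n × E m =>
      Fin.append ((1 - p.1) • p.2.1) (p.1 • p.2.2)) ''
      (Set.Icc (0 : ℝ) 1 ×ˢ (K ×ˢ K')) := by
    ext z
    constructor
    · rintro ⟨t, ht, ht', x, hx, y, hy, rfl⟩
      exact ⟨(t, x, y), ⟨⟨ht, ht'⟩, hx, hy⟩, rfl⟩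
    · rintro ⟨⟨t, x, y⟩, ⟨⟨ht, ht'⟩, hx, hy⟩, rfl⟩
      exact ⟨t, ht, ht', x, hx, y, hy, rfl⟩
  rw [himg]
  exact (isCompact_Icc.prod (hK.prod hK')).image hc

/-- F6d. copy of `convex_join` in `P254b/Convex.lean` (no need for `0 ∈ K`). -/
theorem convex_free {n m : ℕ} (K : Set (E n)) (K' : Set (E m)) (hK : Convex ℝ K)
    (hK' : Convex ℝ K') : Convex ℝ (free K K') := by
  rintro z₁ ⟨t₁, ht₁, ht₁', x₁, hx₁, y₁, hy₁, rfl⟩ z₂ ⟨t₂, ht₂, ht₂', x₂, hx₂, y₂, hy₂, rfl⟩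
    a b ha hb hab
  obtain ⟨x, hx, hxe⟩ := exists_comb_V K hK hx₁ hx₂ (α := a * (1 - t₁)) (β := b * (1 - t₂))
    (mul_nonneg ha (by linarith)) (mul_nonneg hb (by linarith))
  obtain ⟨y, hy, hye⟩ := exists_comb_V K' hK' hy₁ hy₂ (α := a * t₁) (β := b * t₂)
    (mul_nonneg ha ht₁) (mul_nonneg hb ht₂)
  refine ⟨a * t₁ + b * t₂, by positivity, ?_, x, hx, y, hy, ?_⟩
  · nlinarith
  · rw [append_lin_V]
    have e1 : (1 - (a * t₁ + b * t₂)) = a * (1 - t₁) + b * (1 - t₂) := by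
      have : (1 : ℝ) = a + b := hab.symm
      linear_combination this
    rw [e1, hxe, hye, smul_smul, smul_smul, smul_smul, smul_smul]

/-- F6e. the free sum is the convex hull of `K × 0 ∪ 0 × K'`. -/
theorem free_eq_convexHull {n m : ℕ} (K : Set (E n)) (K' : Set (E m)) (hK : Convex ℝ K)
    (hK' : Convex ℝ K') (h0 : (0 : E n) ∈ K) (h0' : (0 : E m) ∈ K') :
    free K K' = convexHull ℝ ((fun x : E n => Fin.append x (0 : E m)) '' K ∪
      (fun y : E m => Fin.append (0 : E n) y) '' K') := by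
  apply Set.Subset.antisymm
  · rintro _ ⟨t, ht0, ht1, x, hx, y, hy, rfl⟩
    have e : Fin.append ((1 - t) • x) (t • y)
        = (1 - t) • Fin.append x (0 : E m) + t • Fin.append (0 : E n) y := by
      rw [append_lin_V]
      simp
    rw [e]
    apply convex_convexHull ℝ _ _ _ (by linarith) ht0 (by ring)
    · exact subset_convexHull ℝ _ (Or.inl ⟨x, hx, rfl⟩)
    · exact subset_convexHull ℝ _ (Or.inr ⟨y, hy, rfl⟩)
  · apply convexHull_min _ (convex_free K K' hK hK')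
    rintro _ (⟨x, hx, rfl⟩ | ⟨y, hy, rfl⟩)
    · exact ⟨0, le_rfl, zero_le_one, x, hx, 0, h0', by simp⟩
    · exact ⟨1, zero_le_one, le_rfl, 0, h0, y, hy, by simp⟩

end P254
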