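import Vale.Agent.Lib.P254c.SecP

/-! # P254c unit F4: the join of `K, K'` and the pyramid over their free sum have fibres of equal length -/

namespace P254
open MeasureTheory
open scoped Pointwise
variable {ι κ : Type*} [Fintype ι] [Fintype κ]

theorem mem_secJ_iff (K : Set (ι → ℝ)) (K' : Set (κ → ℝ)) (w : ι ⊕ κ → ℝ) (t : ℝ) :
    t ∈ secJ K K' w ↔
      1 - t ∈ dilU K (fun i => w (Sum.inl i)) ∧ t ∈ dilU K' (fun j => w (Sum.inr j)) := by
  unfold secJ dilU
  simp only [Set.mem_ofPred_eq]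
  constructor
  · rintro ⟨h1, h2, h3, h4⟩
    exact ⟨⟨by linarith, by linarith, h3⟩, h1, h2, h4⟩
  · rintro ⟨⟨h1, h2, h3⟩, h4, h5, h6⟩
    exact ⟨h4, h5, h3, h6⟩

theorem mem_dilU_freeG_iff (K : Set (ι → ℝ)) (K' : Set (κ → ℝ)) (w : ι ⊕ κ → ℝ) (c : ℝ) :
    c ∈ dilU (freeG K K') w ↔ c ≤ 1 ∧ ∃ c₁ c₂ : ℝ, c₁ + c₂ = c ∧
      c₁ ∈ dilU K (fun i => w (Sum.inl i)) ∧ c₂ ∈ dilU K' (fun j => w (Sum.inr j)) := by
  constructor
  · rintro ⟨h0, h1, z, ⟨s, hs0, hs1, x, hx, y, hy, rfl⟩, rfl⟩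
    have e1 : 0 ≤ c * (1 - s) := mul_nonneg h0 (by linarith)
    have e2 : 0 ≤ c * s := mul_nonneg h0 hs0
    refine ⟨h1, c * (1 - s), c * s, by ring, ⟨e1, by nlinarith, x, hx, ?_⟩,
      ⟨e2, by nlinarith, y, hy, ?_⟩⟩
    · funext i
      simp [mul_assoc]
    · funext j
      simp [mul_assoc]
  · rintro ⟨h1, c₁, c₂, hsum, ⟨a0, a1, x, hx, hxw⟩, ⟨b0, b1, y, hy, hyw⟩⟩
    have hc0 : 0 ≤ c := by linarith
    refine ⟨hc0, h1, ?_⟩
    rcases hc0.eq_or_lt with hc | hc
    · have ha : c₁ = 0 := by linarith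
      have hb : c₂ = 0 := by linarith
      refine ⟨Sum.elim ((1 - (0 : ℝ)) • x) ((0 : ℝ) • y),
        ⟨0, le_refl _, zero_le_one, x, hx, y, hy, rfl⟩, ?_⟩
      funext k
      rcases k with i | j
      · have := congrFun hxw i
        simp only [ha] at this
        simp only [← hc]
        simpa using this
      · have := congrFun hyw j
        simp only [hb] at this
        simp only [← hc]
        simpa using this
    · refine ⟨Sum.elim ((1 - c₂ / c) • x) ((c₂ / c) • y),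
        ⟨c₂ / c, by positivity, by rw [div_le_one hc]; linarith, x, hx, y, hy, rfl⟩, ?_⟩
      funext k
      rcases k with i | j
      · have := congrFun hxw i
        simp only [Pi.smul_apply, smul_eq_mul, Sum.elim_inl] at this ⊢
        rw [← this, ← mul_assoc]
        congr 1
        field_simp
        linarith
      · have := congrFun hyw j
        simp only [Pi.smul_apply, smul_eq_mul, Sum.elim_inr] at this ⊢
        rw [← this, ← mul_assoc]
        congr 1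
        field_simp

/-- F4.  Write `w = (x', y')`, `A = {t ∈ [0,1] | x' ∈ (1-t) • K}` (closed, downward closed in `[0,1]`),
`B = {t ∈ [0,1] | y' ∈ t • K'}` (closed, upward closed in `[0,1]`).  Then `secJ K K' w = A ∩ B` and
`secP (freeG K K') w = {t₁ - t₂ | t₁ ∈ A, t₂ ∈ B, t₂ ≤ t₁}`:
`w = (1-u) ((1-s) x, s y)` gives `t₁ = 1 - (1-u)(1-s)`, `t₂ = (1-u) s`, `t₁ - t₂ = u`; conversely `u = t₁ - t₂ < 1`
gives `s = t₂ / (1-u)`, `1 - s = (1-t₁)/(1-u)`, and `u = 1` forces `w = 0`.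
If `A ∩ B = ∅` both sets are empty (`t₂ ≤ t₁`, `t₂ ∈ B` give `t₁ ∈ B`).  Otherwise `A = [0, a]`, `B = [β, 1]`, `β ≤ a`,
`A ∩ B = [β, a]` and the second set is `[0, a - β]`. -/
theorem vol_secJ_eq (K : Set (ι → ℝ)) (K' : Set (κ → ℝ)) (hK : IsCompact K) (hK' : IsCompact K')
    (hc : Convex ℝ K) (hc' : Convex ℝ K') (h0 : (0 : ι → ℝ) ∈ K) (h0' : (0 : κ → ℝ) ∈ K')
    (w : ι ⊕ κ → ℝ) :
    volume (secJ K K' w) = volume (secP (freeG K K') w) := by
  rcases dilU_struct K hK hc h0 (fun i => w (Sum.inl i)) with hA | ⟨γ, hγ0, hγ1, hA⟩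
  · have e1 : secJ K K' w = ∅ := by
      rw [Set.eq_empty_iff_forall_notMem]
      intro t ht
      rw [mem_secJ_iff, hA] at ht
      exact ht.1
    have e2 : secP (freeG K K') w = ∅ := by
      rw [Set.eq_empty_iff_forall_notMem]
      intro t ht
      rw [mem_secP_iff, mem_dilU_freeG_iff, hA] at ht
      obtain ⟨_, c₁, c₂, _, h, _⟩ := ht
      exact h
    rw [e1, e2]
  rcases dilU_struct K' hK' hc' h0' (fun j => w (Sum.inr j)) with hB | ⟨β, hβ0, hβ1, hB⟩
  · have e1 : secJ K K' w = ∅ := by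
      rw [Set.eq_empty_iff_forall_notMem]
      intro t ht
      rw [mem_secJ_iff, hB] at ht
      exact ht.2
    have e2 : secP (freeG K K') w = ∅ := by
      rw [Set.eq_empty_iff_forall_notMem]
      intro t ht
      rw [mem_secP_iff, mem_dilU_freeG_iff, hB] at ht
      obtain ⟨_, c₁, c₂, _, _, h⟩ := ht
      exact h
    rw [e1, e2]
  have e1 : secJ K K' w = Set.Icc β (1 - γ) := by
    ext t
    rw [mem_secJ_iff, hA, hB]
    simp only [Set.mem_Icc]
    constructor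
    · rintro ⟨⟨a, b⟩, c, d⟩
      exact ⟨c, by linarith⟩
    · rintro ⟨a, b⟩
      exact ⟨⟨by linarith, by linarith⟩, a, by linarith⟩
  have e2 : secP (freeG K K') w = Set.Icc 0 (1 - γ - β) := by
    ext t
    rw [mem_secP_iff, mem_dilU_freeG_iff, hA, hB]
    simp only [Set.mem_Icc]
    constructor
    · rintro ⟨a, c₁, c₂, hs, ⟨b1, b2⟩, d1, d2⟩
      exact ⟨by linarith, by linarith⟩
    · rintro ⟨a, b⟩
      exact ⟨by linarith, γ, 1 - t - γ, by ring, ⟨le_refl _, hγ1⟩, by linarith, by linarith⟩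
  rw [e1, e2, Real.volume_Icc, Real.volume_Icc]
  congr 1
  ring

end P254
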