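import Vale.Agent.Lib.P254c.FDefs

/-! # P254c unit F2: Fubini for the join, integrating `t` first -/

namespace P254
open MeasureTheory
open scoped Pointwise
variable {ι κ : Type*} [Fintype ι] [Fintype κ]

/-- F2.  As in `joinG_fubini` (`P254b/JoinInt.lean`: `joinT`, `joinS`, `isCompact_joinS`), but integrate over
`t` first, and then go back from `(ι → ℝ) × (κ → ℝ)` to `ι ⊕ κ → ℝ` with
`volume_measurePreserving_sumPiEquivProdPi`. -/
theorem swapJ (K : Set (ι → ℝ)) (K' : Set (κ → ℝ)) (hK : IsCompact K) (hK' : IsCompact K')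
    (φ : (ι → ℝ) → ℝ) (ψ : (κ → ℝ) → ℝ) (hφ : Continuous φ) (hψ : Continuous ψ) :
    ∫ z in joinG K K', φ (fun i => z (Sum.inl (Sum.inl i))) * ψ (fun j => z (Sum.inl (Sum.inr j)))
      = ∫ w : ι ⊕ κ → ℝ, φ (fun i => w (Sum.inl i)) * ψ (fun j => w (Sum.inr j))
          * (volume (secJ K K' w)).toReal := by
  classical
  set F : ((ι → ℝ) × (κ → ℝ)) × ℝ → ℝ := fun w => φ w.1.1 * ψ w.1.2 with hF
  have hFc : Continuous F := by fun_prop
  have hSc := isCompact_joinS K K' hK hK'
  have h1 : ∫ z in joinG K K', φ (fun i => z (Sum.inl (Sum.inl i)))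
        * ψ (fun j => z (Sum.inl (Sum.inr j)))
      = ∫ w in joinS K K', F w := by
    rw [joinG_eq_preimage]
    exact measurePreserving_joinT.setIntegral_preimage_emb (joinT ι κ).measurableEmbedding F _
  rw [h1, ← integral_indicator hSc.measurableSet]
  have hint : Integrable ((joinS K K').indicator F)
      ((volume : Measure ((ι → ℝ) × (κ → ℝ))).prod (volume : Measure ℝ)) :=
    (integrable_indicator_iff hSc.measurableSet).2 (hFc.continuousOn.integrableOn_compact hSc)
  have h2 : ∫ w, (joinS K K').indicator F w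
      = ∫ p, ∫ t, (joinS K K').indicator F (p, t) := integral_prod _ hint
  rw [h2]
  have h3 : ∀ p : (ι → ℝ) × (κ → ℝ), ∫ t, (joinS K K').indicator F (p, t)
      = φ p.1 * ψ p.2 * (volume (secJ K K' (Sum.elim p.1 p.2))).toReal := by
    intro p
    have hset : secJ K K' (Sum.elim p.1 p.2) = (fun t : ℝ => (p, t)) ⁻¹' joinS K K' := rfl
    have hmeas : MeasurableSet (secJ K K' (Sum.elim p.1 p.2)) := by
      rw [hset]
      exact (hSc.isClosed.preimage (by fun_prop)).measurableSet
    have hfun : (fun t => (joinS K K').indicator F (p, t))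
        = (secJ K K' (Sum.elim p.1 p.2)).indicator (fun _ => φ p.1 * ψ p.2) := by
      funext t
      by_cases ht : t ∈ secJ K K' (Sum.elim p.1 p.2)
      · rw [Set.indicator_of_mem ht, Set.indicator_of_mem]
        exact ht
      · rw [Set.indicator_of_notMem ht, Set.indicator_of_notMem]
        exact ht
    rw [hfun, integral_indicator hmeas, setIntegral_const, smul_eq_mul, mul_comm]
    rfl
  simp only [h3]
  exact ((volume_measurePreserving_sumPiEquivProdPi (fun _ : ι ⊕ κ => ℝ)).integral_comp'
    (fun p : (ι → ℝ) × (κ → ℝ) =>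
      φ p.1 * ψ p.2 * (volume (secJ K K' (Sum.elim p.1 p.2))).toReal)).symm

end P254
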