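import Vale.Agent.Lib.P254c.SwapP
import Vale.Agent.Lib.P254c.SwapJ
import Vale.Agent.Lib.P254c.SecEq
import Vale.Agent.Lib.P254c.FreeTop

/-! # P254c unit F5: integrals of homogeneous functions over a free sum -/

namespace P254
open MeasureTheory
open scoped Pointwise
variable {ι κ : Type*} [Fintype ι] [Fintype κ]

/-- F5a.  `setIntegral_smul_set` on `Ioo 0 1` and `∫_0^1 t^c (1-t)^p = c! p! / (c+p+1)!` (`beta_nat`, as in the
proof of `joinG_integral`). -/
theorem pyr_eval (K : Set (ι → ℝ)) (Φ : (ι → ℝ) → ℝ) (a c : ℕ)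
    (hΦa : ∀ (s : ℝ) (x : ι → ℝ), Φ (s • x) = s ^ a * Φ x) :
    ∫ t in (0 : ℝ)..1, t ^ c * (∫ x in (1 - t) • K, Φ x)
      = ((c.factorial : ℝ) * ((Fintype.card ι + a).factorial : ℝ)
          / ((c + (Fintype.card ι + a) + 1).factorial : ℝ)) * ∫ x in K, Φ x := by
  set A := ∫ x in K, Φ x with hA
  have h1 : ∫ t in (0 : ℝ)..1, t ^ c * (∫ x in (1 - t) • K, Φ x)
      = ∫ t in (0 : ℝ)..1, (t ^ c * (1 - t) ^ (Fintype.card ι + a)) * A := by
    rw [intervalIntegral.integral_of_le zero_le_one, intervalIntegral.integral_of_le zero_le_one,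
      integral_Ioc_eq_integral_Ioo, integral_Ioc_eq_integral_Ioo]
    refine setIntegral_congr_fun measurableSet_Ioo (fun t ht => ?_)
    rw [setIntegral_smul_set K Φ a hΦa (1 - t) (by linarith [ht.2])]
    ring
  rw [h1, intervalIntegral.integral_mul_const, beta_nat, one_pow, one_mul]

/-- F5b.  With `Φ w = φ (w ∘ inl) * ψ (w ∘ inr)` (continuous, homogeneous of degree `a + b`), `F = freeG K K'`:
`pyr_eval F Φ (a+b) 0` and `swapP F Φ 1` give `(∫_F Φ) / (N+a+b+1) = ∫ w, Φ w * vol (secP F w)`; by `vol_secJ_eq`,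
`swapJ` and `joinG_integral` (`c = 0`) this is `(n+a)! (m+b)! / (n+a+m+b+1)! * ∫_K φ * ∫_K' ψ`. -/
theorem freeG_integral (K : Set (ι → ℝ)) (K' : Set (κ → ℝ)) (hK : IsCompact K) (hK' : IsCompact K')
    (hc : Convex ℝ K) (hc' : Convex ℝ K') (h0 : (0 : ι → ℝ) ∈ K) (h0' : (0 : κ → ℝ) ∈ K')
    (φ : (ι → ℝ) → ℝ) (ψ : (κ → ℝ) → ℝ) (a b : ℕ)
    (hφ : Continuous φ) (hψ : Continuous ψ)
    (hφa : ∀ (s : ℝ) (x : ι → ℝ), φ (s • x) = s ^ a * φ x)
    (hψb : ∀ (s : ℝ) (y : κ → ℝ), ψ (s • y) = s ^ b * ψ y) :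
    ∫ z in freeG K K', φ (fun i => z (Sum.inl i)) * ψ (fun j => z (Sum.inr j))
      = (((Fintype.card ι + a).factorial : ℝ) * ((Fintype.card κ + b).factorial : ℝ)
          / ((Fintype.card ι + a + (Fintype.card κ + b)).factorial : ℝ))
        * ((∫ x in K, φ x) * (∫ y in K', ψ y)) := by
  set Φ : (ι ⊕ κ → ℝ) → ℝ := fun w => φ (fun i => w (Sum.inl i)) * ψ (fun j => w (Sum.inr j)) with hΦ
  have hΦc : Continuous Φ := by
    apply Continuous.mul
    · exact hφ.comp (continuous_pi fun i => continuous_apply _)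
    · exact hψ.comp (continuous_pi fun j => continuous_apply _)
  have hΦh : ∀ (s : ℝ) (w : ι ⊕ κ → ℝ), Φ (s • w) = s ^ (a + b) * Φ w := by
    intro s w
    have e1 : (fun i => (s • w) (Sum.inl i)) = s • (fun i => w (Sum.inl i)) := by
      funext i; simp
    have e2 : (fun j => (s • w) (Sum.inr j)) = s • (fun j => w (Sum.inr j)) := by
      funext j; simp
    simp only [hΦ]
    rw [e1, e2, hφa, hψb, pow_add]
    ring
  have hF := isCompact_freeG K K' hK hK'
  have p1 := pyr_eval (freeG K K') Φ (a + b) 0 hΦh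
  have p2 := swapP (freeG K K') hF Φ (fun _ => (1 : ℝ)) hΦc continuous_const
  have p3 := swapJ K K' hK hK' φ ψ hφ hψ
  have p4 := joinG_integral K K' hK hK' φ ψ a b 0 hφ hψ hφa hψb
  simp only [pow_zero, one_mul, mul_one] at p1 p2 p4
  have p5 : ∀ w : ι ⊕ κ → ℝ, (∫ t in secP (freeG K K') w, (1 : ℝ))
      = (volume (secJ K K' w)).toReal := by
    intro w
    rw [vol_secJ_eq K K' hK hK' hc hc' h0 h0' w]
    simp [Measure.real]
  simp only [p5] at p2
  rw [← p3, p4] at p2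
  rw [p2] at p1
  simp only [Fintype.card_sum, Nat.factorial_zero, Nat.cast_one, one_mul, zero_add, add_zero] at p1
  have e : Fintype.card ι + Fintype.card κ + (a + b) = Fintype.card ι + a + (Fintype.card κ + b) := by
    omega
  rw [e] at p1
  set M := Fintype.card ι + a + (Fintype.card κ + b) with hM
  have hfac : ((M + 1).factorial : ℝ) = ((M : ℝ) + 1) * (M.factorial : ℝ) := by
    rw [Nat.factorial_succ]; push_cast; ring
  rw [hfac] at p1
  have hM1 : ((M : ℝ) + 1) ≠ 0 := by positivity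
  have hMf : (M.factorial : ℝ) ≠ 0 := by positivity
  have hgoal : ∫ z in freeG K K', Φ z = ∫ z in freeG K K', φ (fun i => z (Sum.inl i)) * ψ (fun j => z (Sum.inr j)) := rfl
  rw [← hgoal]
  field_simp at p1 ⊢
  linarith

end P254
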