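import Vale.Agent.Lib.P254c.FreeInt

/-! # P254c unit F7: volume, centroid and second moments of a free sum
(all from `freeG_integral` with `φ, ψ ∈ {1, x_i, x_i x_k}`; compare `P254b/JoinMom.lean`) -/

namespace P254
open MeasureTheory
open scoped Pointwise
variable {ι κ : Type*} [Fintype ι] [Fintype κ]

theorem volG_freeG (K : Set (ι → ℝ)) (K' : Set (κ → ℝ)) (hK : IsCompact K) (hK' : IsCompact K')
    (hc : Convex ℝ K) (hc' : Convex ℝ K') (h0 : (0 : ι → ℝ) ∈ K) (h0' : (0 : κ → ℝ) ∈ K') :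
    volG (freeG K K') = (((Fintype.card ι).factorial : ℝ) * ((Fintype.card κ).factorial : ℝ)
      / ((Fintype.card ι + Fintype.card κ).factorial : ℝ)) * (volG K * volG K') := by
  have h := freeG_integral K K' hK hK' hc hc' h0 h0' (fun _ => 1) (fun _ => 1) 0 0 continuous_const
    continuous_const (by simp) (by simp)
  rw [volG_eq_integral_one (freeG K K'), volG_eq_integral_one K, volG_eq_integral_one K']
  simpa using h

/-- the ratio of the Beta factors for free sums -/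
noncomputable def fF (n m a e : ℕ) : ℝ :=
  (((n + a).factorial : ℝ) * ((m + e).factorial : ℝ) / ((n + a + (m + e)).factorial : ℝ))
    / ((n.factorial : ℝ) * (m.factorial : ℝ) / ((n + m).factorial : ℝ))

theorem fF_10 (n m : ℕ) : fF n m 1 0 = ((n : ℝ) + 1) / ((n : ℝ) + m + 1) := by
  unfold fF
  have e : n + 1 + (m + 0) = (n + m) + 1 := by omega
  rw [e, fac1 (n + m), fac1 n, Nat.add_zero]
  have h1 : (n.factorial : ℝ) ≠ 0 := by positivity
  have h2 : (m.factorial : ℝ) ≠ 0 := by positivity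
  have h3 : ((n + m).factorial : ℝ) ≠ 0 := by positivity
  have h4 : ((n : ℝ) + m + 1) ≠ 0 := by positivity
  push_cast
  field_simp

theorem fF_01 (n m : ℕ) : fF n m 0 1 = ((m : ℝ) + 1) / ((n : ℝ) + m + 1) := by
  unfold fF
  have e : n + 0 + (m + 1) = (n + m) + 1 := by omega
  rw [e, fac1 (n + m), fac1 m, Nat.add_zero]
  have h1 : (n.factorial : ℝ) ≠ 0 := by positivity
  have h2 : (m.factorial : ℝ) ≠ 0 := by positivity
  have h3 : ((n + m).factorial : ℝ) ≠ 0 := by positivity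
  have h4 : ((n : ℝ) + m + 1) ≠ 0 := by positivity
  push_cast
  field_simp

theorem fF_20 (n m : ℕ) : fF n m 2 0 = ((n : ℝ) + 1) * ((n : ℝ) + 2)
    / (((n : ℝ) + m + 1) * ((n : ℝ) + m + 2)) := by
  unfold fF
  have e : n + 2 + (m + 0) = (n + m) + 2 := by omega
  rw [e, fac2 (n + m), fac2 n, Nat.add_zero]
  have h1 : (n.factorial : ℝ) ≠ 0 := by positivity
  have h2 : (m.factorial : ℝ) ≠ 0 := by positivity
  have h3 : ((n + m).factorial : ℝ) ≠ 0 := by positivity
  have h4 : ((n : ℝ) + m + 1) ≠ 0 := by positivity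
  have h5 : ((n : ℝ) + m + 2) ≠ 0 := by positivity
  push_cast
  field_simp

theorem fF_02 (n m : ℕ) : fF n m 0 2 = ((m : ℝ) + 1) * ((m : ℝ) + 2)
    / (((n : ℝ) + m + 1) * ((n : ℝ) + m + 2)) := by
  unfold fF
  have e : n + 0 + (m + 2) = (n + m) + 2 := by omega
  rw [e, fac2 (n + m), fac2 m, Nat.add_zero]
  have h1 : (n.factorial : ℝ) ≠ 0 := by positivity
  have h2 : (m.factorial : ℝ) ≠ 0 := by positivity
  have h3 : ((n + m).factorial : ℝ) ≠ 0 := by positivity
  have h4 : ((n : ℝ) + m + 1) ≠ 0 := by positivity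
  have h5 : ((n : ℝ) + m + 2) ≠ 0 := by positivity
  push_cast
  field_simp

theorem fF_11 (n m : ℕ) : fF n m 1 1 = ((n : ℝ) + 1) * ((m : ℝ) + 1)
    / (((n : ℝ) + m + 1) * ((n : ℝ) + m + 2)) := by
  unfold fF
  have e : n + 1 + (m + 1) = (n + m) + 2 := by omega
  rw [e, fac2 (n + m), fac1 m, fac1 n]
  have h1 : (n.factorial : ℝ) ≠ 0 := by positivity
  have h2 : (m.factorial : ℝ) ≠ 0 := by positivity
  have h3 : ((n + m).factorial : ℝ) ≠ 0 := by positivity
  have h4 : ((n : ℝ) + m + 1) ≠ 0 := by positivity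
  have h5 : ((n : ℝ) + m + 2) ≠ 0 := by positivity
  push_cast
  field_simp

/-- normalised moments of a free sum -/
theorem free_ratio (K : Set (ι → ℝ)) (K' : Set (κ → ℝ)) (hK : IsCompact K) (hK' : IsCompact K')
    (hc : Convex ℝ K) (hc' : Convex ℝ K') (h0 : (0 : ι → ℝ) ∈ K) (h0' : (0 : κ → ℝ) ∈ K')
    (hv : volG K ≠ 0) (hv' : volG K' ≠ 0)
    (φ : (ι → ℝ) → ℝ) (ψ : (κ → ℝ) → ℝ) (a b : ℕ)
    (hφ : Continuous φ) (hψ : Continuous ψ)
    (hφa : ∀ (s : ℝ) (x : ι → ℝ), φ (s • x) = s ^ a * φ x)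
    (hψb : ∀ (s : ℝ) (y : κ → ℝ), ψ (s • y) = s ^ b * ψ y) :
    (∫ z in freeG K K', φ (fun i => z (Sum.inl i)) * ψ (fun j => z (Sum.inr j)))
        / volG (freeG K K')
      = fF (Fintype.card ι) (Fintype.card κ) a b
        * (((∫ x in K, φ x) / volG K) * ((∫ y in K', ψ y) / volG K')) := by
  rw [freeG_integral K K' hK hK' hc hc' h0 h0' φ ψ a b hφ hψ hφa hψb,
    volG_freeG K K' hK hK' hc hc' h0 h0']
  unfold fF
  have h1 : ((Fintype.card ι).factorial : ℝ) ≠ 0 := by positivity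
  have h2 : ((Fintype.card κ).factorial : ℝ) ≠ 0 := by positivity
  have h3 : ((Fintype.card ι + Fintype.card κ).factorial : ℝ) ≠ 0 := by positivity
  have h4 : ((Fintype.card ι + a + (Fintype.card κ + b)).factorial : ℝ) ≠ 0 := by
    positivity
  field_simp

theorem cenG_freeG_x (K : Set (ι → ℝ)) (K' : Set (κ → ℝ)) (hK : IsCompact K) (hK' : IsCompact K')
    (hc : Convex ℝ K) (hc' : Convex ℝ K') (h0 : (0 : ι → ℝ) ∈ K) (h0' : (0 : κ → ℝ) ∈ K')
    (hv : 0 < volG K) (hv' : 0 < volG K') (i : ι) :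
    cenG (freeG K K') (Sum.inl i) = (((Fintype.card ι : ℝ) + 1)
      / ((Fintype.card ι : ℝ) + (Fintype.card κ : ℝ) + 1)) * cenG K i := by
  have h := free_ratio K K' hK hK' hc hc' h0 h0' hv.ne' hv'.ne' (fun x => x i) (fun _ => 1) 1 0
    (continuous_apply i) continuous_const (by simp) (by simp)
  rw [one_ratio K' hv'.ne', fF_10] at h
  simpa [cenG] using h

theorem cenG_freeG_y (K : Set (ι → ℝ)) (K' : Set (κ → ℝ)) (hK : IsCompact K) (hK' : IsCompact K')
    (hc : Convex ℝ K) (hc' : Convex ℝ K') (h0 : (0 : ι → ℝ) ∈ K) (h0' : (0 : κ → ℝ) ∈ K')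
    (hv : 0 < volG K) (hv' : 0 < volG K') (j : κ) :
    cenG (freeG K K') (Sum.inr j) = (((Fintype.card κ : ℝ) + 1)
      / ((Fintype.card ι : ℝ) + (Fintype.card κ : ℝ) + 1)) * cenG K' j := by
  have h := free_ratio K K' hK hK' hc hc' h0 h0' hv.ne' hv'.ne' (fun _ => 1) (fun y => y j) 0 1
    continuous_const (continuous_apply j) (by simp) (by simp)
  rw [one_ratio K hv.ne', fF_01] at h
  simpa [cenG] using h

theorem m2G_freeG_xx (K : Set (ι → ℝ)) (K' : Set (κ → ℝ)) (hK : IsCompact K) (hK' : IsCompact K')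
    (hc : Convex ℝ K) (hc' : Convex ℝ K') (h0 : (0 : ι → ℝ) ∈ K) (h0' : (0 : κ → ℝ) ∈ K')
    (hv : 0 < volG K) (hv' : 0 < volG K') (i k : ι) :
    m2G (freeG K K') (Sum.inl i) (Sum.inl k)
      = (((Fintype.card ι : ℝ) + 1) * ((Fintype.card ι : ℝ) + 2)
        / (((Fintype.card ι : ℝ) + (Fintype.card κ : ℝ) + 1)
          * ((Fintype.card ι : ℝ) + (Fintype.card κ : ℝ) + 2))) * m2G K i k := by
  have h := free_ratio K K' hK hK' hc hc' h0 h0' hv.ne' hv'.ne' (fun x => x i * x k) (fun _ => 1) 2 0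
    ((continuous_apply i).mul (continuous_apply k))
    continuous_const (by intro s x; simp; ring) (by simp)
  rw [one_ratio K' hv'.ne', fF_20] at h
  simpa [m2G] using h

theorem m2G_freeG_yy (K : Set (ι → ℝ)) (K' : Set (κ → ℝ)) (hK : IsCompact K) (hK' : IsCompact K')
    (hc : Convex ℝ K) (hc' : Convex ℝ K') (h0 : (0 : ι → ℝ) ∈ K) (h0' : (0 : κ → ℝ) ∈ K')
    (hv : 0 < volG K) (hv' : 0 < volG K') (j l : κ) :
    m2G (freeG K K') (Sum.inr j) (Sum.inr l)
      = (((Fintype.card κ : ℝ) + 1) * ((Fintype.card κ : ℝ) + 2)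
        / (((Fintype.card ι : ℝ) + (Fintype.card κ : ℝ) + 1)
          * ((Fintype.card ι : ℝ) + (Fintype.card κ : ℝ) + 2))) * m2G K' j l := by
  have h := free_ratio K K' hK hK' hc hc' h0 h0' hv.ne' hv'.ne' (fun _ => 1) (fun y => y j * y l) 0 2
    continuous_const ((continuous_apply j).mul (continuous_apply l)) (by simp)
    (by intro s x; simp; ring)
  rw [one_ratio K hv.ne', fF_02] at h
  simpa [m2G] using h

theorem m2G_freeG_xy (K : Set (ι → ℝ)) (K' : Set (κ → ℝ)) (hK : IsCompact K) (hK' : IsCompact K')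
    (hc : Convex ℝ K) (hc' : Convex ℝ K') (h0 : (0 : ι → ℝ) ∈ K) (h0' : (0 : κ → ℝ) ∈ K')
    (hv : 0 < volG K) (hv' : 0 < volG K') (i : ι) (j : κ) :
    m2G (freeG K K') (Sum.inl i) (Sum.inr j)
      = (((Fintype.card ι : ℝ) + 1) * ((Fintype.card κ : ℝ) + 1)
        / (((Fintype.card ι : ℝ) + (Fintype.card κ : ℝ) + 1)
          * ((Fintype.card ι : ℝ) + (Fintype.card κ : ℝ) + 2))) * (cenG K i * cenG K' j) := by
  have h := free_ratio K K' hK hK' hc hc' h0 h0' hv.ne' hv'.ne' (fun x => x i) (fun y => y j) 1 1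
    (continuous_apply i) (continuous_apply j) (by simp) (by simp)
  rw [fF_11] at h
  simpa [m2G, cenG] using h

end P254
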