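import Vale.Agent.Lib.P254c.MomA

/-! # P254c unit F9c: `(n+1)^2 (∫_K ℓ)^2 ≤ n (n+2) |K| ∫_K ℓ^2` for convex `K ∋ 0` and linear `ℓ` -/

namespace P254
open MeasureTheory
open scoped Pointwise
variable {ι : Type*} [Fintype ι]

theorem aP_bounds (K : Set (ι → ℝ)) (hK : IsCompact K) (hc : Convex ℝ K)
    (h0 : (0 : ι → ℝ) ∈ K) (w : ι → ℝ) : 0 ≤ aP K w ∧ aP K w ≤ 1 := by
  by_cases hw : w ∈ K
  · exact (secP_eq K hK hc h0 w hw).2
  · have : aP K w = 0 := by
      unfold aP
      rw [secP_empty K hc h0 w hw]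
      simp
    rw [this]
    exact ⟨le_refl _, zero_le_one⟩

theorem integrableOn_mul_aP (K : Set (ι → ℝ)) (hK : IsCompact K) (hc : Convex ℝ K)
    (h0 : (0 : ι → ℝ) ∈ K) (g : (ι → ℝ) → ℝ) (hg : IntegrableOn g K) :
    IntegrableOn (fun w => g w * aP K w) K := by
  have hm : AEStronglyMeasurable (aP K) (volume.restrict K) :=
    (measurable_aP K hK).aestronglyMeasurable
  refine Integrable.mul_bdd (c := 1) hg hm ?_
  refine Filter.Eventually.of_forall fun w => ?_
  rw [Real.norm_eq_abs, abs_le]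
  have := aP_bounds K hK hc h0 w
  constructor <;> linarith [this.1, this.2]

theorem moment_bound (K : Set (ι → ℝ)) (hK : IsCompact K) (hc : Convex ℝ K)
    (h0 : (0 : ι → ℝ) ∈ K) (c : ι → ℝ) :
    ((Fintype.card ι : ℝ) + 1) ^ 2 * (∫ x in K, ∑ i, c i * x i) ^ 2
      ≤ (Fintype.card ι : ℝ) * ((Fintype.card ι : ℝ) + 2) * volG K
        * ∫ x in K, (∑ i, c i * x i) ^ 2 := by
  set n : ℝ := (Fintype.card ι : ℝ) with hn
  have hn0 : 0 ≤ n := by rw [hn]; positivity
  set ℓ : (ι → ℝ) → ℝ := fun x => ∑ i, c i * x i with hℓ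
  have hℓc : Continuous ℓ := by rw [hℓ]; fun_prop
  have hℓh : ∀ (s : ℝ) (x : ι → ℝ), ℓ (s • x) = s ^ 1 * ℓ x := by
    intro s x
    simp only [hℓ, Pi.smul_apply, smul_eq_mul, pow_one, Finset.mul_sum]
    refine Finset.sum_congr rfl fun i _ => ?_
    ring
  have i1 : IntegrableOn ℓ K := hℓc.continuousOn.integrableOn_compact hK
  have i2 : IntegrableOn (fun x => ℓ x ^ 2) K := (hℓc.pow 2).continuousOn.integrableOn_compact hK
  have i3 : IntegrableOn (fun _ : ι → ℝ => (1 : ℝ)) K :=
    continuous_const.continuousOn.integrableOn_compact hK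
  have i4 : IntegrableOn (fun w => ℓ w * aP K w) K := integrableOn_mul_aP K hK hc h0 ℓ i1
  have i5 : IntegrableOn (fun w => (1 : ℝ) * aP K w) K := integrableOn_mul_aP K hK hc h0 _ i3
  have i6 : IntegrableOn (fun w => (1 : ℝ) * aP K w * aP K w) K :=
    integrableOn_mul_aP K hK hc h0 _ i5
  have e1 := integral_mul_aP K hK hc h0 ℓ 1 hℓc hℓh
  have e2 := integral_mul_aP K hK hc h0 (fun _ => (1 : ℝ)) 0 continuous_const
    (fun s x => by simp)
  have e3 := integral_aP_sq K hK hc h0
  have eV : ∫ _w in K, (1 : ℝ) = volG K := by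
    simp [volG, Measure.real]
  rw [eV] at e2
  set L := ∫ x in K, ℓ x with hL
  set Q := ∫ x in K, ℓ x ^ 2 with hQ
  set V := volG K with hV
  -- the two derived integrals
  have d1 : ∫ w in K, ℓ w * (1 - aP K w) = L - L / (n + (1 : ℕ) + 1) := by
    have : (fun w => ℓ w * (1 - aP K w)) = fun w => ℓ w - ℓ w * aP K w := by
      funext w; ring
    rw [this, integral_sub i1 i4, e1]
  have d2 : ∫ w in K, (1 - aP K w) ^ 2
      = V - 2 * (V / (n + (0 : ℕ) + 1)) + 2 * V / ((n + 1) * (n + 2)) := by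
    have : (fun w => (1 - aP K w) ^ 2)
        = fun w => (1 : ℝ) - 2 * ((1 : ℝ) * aP K w) + (aP K w) ^ 2 := by
      funext w; ring
    have i6' : IntegrableOn (fun w => (aP K w) ^ 2) K := by
      refine i6.congr (Filter.Eventually.of_forall fun w => ?_)
      simp only; ring
    have i7 : IntegrableOn (fun w => (1 : ℝ) - 2 * ((1 : ℝ) * aP K w)) K := i3.sub (i5.const_mul 2)
    rw [this, integral_add i7 i6', integral_sub i3 (i5.const_mul 2), integral_const_mul, eV, e2, e3]
  have j1 : IntegrableOn (fun w => ℓ w * (1 - aP K w)) K := by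
    have : (fun w => ℓ w * (1 - aP K w)) = fun w => ℓ w - ℓ w * aP K w := by
      funext w; ring
    rw [this]; exact i1.sub i4
  have j2 : IntegrableOn (fun w => (1 - aP K w) ^ 2) K := by
    have : (fun w => (1 - aP K w) ^ 2)
        = fun w => (1 : ℝ) - 2 * ((1 : ℝ) * aP K w) + (1 : ℝ) * aP K w * aP K w := by
      funext w; ring
    rw [this]; exact (i3.sub (i5.const_mul 2)).add i6
  have key : ∀ t : ℝ, 0 ≤ (∫ w in K, (1 - aP K w) ^ 2) * (t * t)
      + (-2 * ∫ w in K, ℓ w * (1 - aP K w)) * t + Q := by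
    intro t
    have hpos : 0 ≤ ∫ w in K, (ℓ w - t * (1 - aP K w)) ^ 2 :=
      integral_nonneg fun w => sq_nonneg _
    have : (fun w => (ℓ w - t * (1 - aP K w)) ^ 2)
        = fun w => ℓ w ^ 2 - (2 * t) * (ℓ w * (1 - aP K w)) + (t * t) * (1 - aP K w) ^ 2 := by
      funext w; ring
    have k1 : IntegrableOn (fun w => ℓ w ^ 2 - (2 * t) * (ℓ w * (1 - aP K w))) K :=
      i2.sub (j1.const_mul _)
    rw [this, integral_add k1 (j2.const_mul _), integral_sub i2 (j1.const_mul _),
      integral_const_mul, integral_const_mul] at hpos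
    linarith
  have hdisc := discrim_le_zero key
  rw [discrim, d1, d2] at hdisc
  have a1 : n + 1 ≠ 0 := by positivity
  have a2 : n + 2 ≠ 0 := by positivity
  have s1 : L - L / (n + (1 : ℕ) + 1) = L * (n + 1) / (n + 2) := by
    push_cast
    have : n + 1 + 1 ≠ 0 := by positivity
    field_simp
    ring
  have s2 : V - 2 * (V / (n + (0 : ℕ) + 1)) + 2 * V / ((n + 1) * (n + 2)) = V * n / (n + 2) := by
    push_cast
    have : n + 0 + 1 ≠ 0 := by positivity
    field_simp
    ring
  rw [s1, s2] at hdisc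
  have h3 : (L * (n + 1) / (n + 2)) ^ 2 ≤ (V * n / (n + 2)) * Q := by nlinarith
  have h4 : (L * (n + 1)) ^ 2 ≤ V * n * (n + 2) * Q := by
    have hp : 0 < n + 2 := by positivity
    have : (L * (n + 1) / (n + 2)) ^ 2 * (n + 2) ^ 2 ≤ (V * n / (n + 2)) * Q * (n + 2) ^ 2 :=
      mul_le_mul_of_nonneg_right h3 (by positivity)
    have t1 : (L * (n + 1) / (n + 2)) ^ 2 * (n + 2) ^ 2 = (L * (n + 1)) ^ 2 := by
      field_simp
    have t2 : (V * n / (n + 2)) * Q * (n + 2) ^ 2 = V * n * (n + 2) * Q := by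
      field_simp
    rw [t1, t2] at this
    exact this
  nlinarith

theorem cen_le_cov (K : Set (ι → ℝ)) (hK : IsCompact K) (hc : Convex ℝ K)
    (h0 : (0 : ι → ℝ) ∈ K) (hv : 0 < volG K) (c : ι → ℝ) :
    (∑ i, c i * cenG K i) ^ 2
      ≤ (Fintype.card ι : ℝ) * ((Fintype.card ι : ℝ) + 2) * ∑ i, ∑ j, c i * (covG K i j * c j) := by
  have hmb := moment_bound K hK hc h0 c
  set n : ℝ := (Fintype.card ι : ℝ) with hn
  have hn0 : 0 ≤ n := by rw [hn]; positivity
  set V := volG K with hV
  have hi : ∀ l : ι, IntegrableOn (fun x : ι → ℝ => x l) K :=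
    fun l => (continuous_apply l).continuousOn.integrableOn_compact hK
  have hij : ∀ i j : ι, IntegrableOn (fun x : ι → ℝ => x i * x j) K := fun i j =>
    ((continuous_apply i).mul (continuous_apply j)).continuousOn.integrableOn_compact hK
  -- first moment
  have f1 : ∫ x in K, ∑ i, c i * x i = V * ∑ i, c i * cenG K i := by
    rw [integral_finsetSum _ (fun i _ => (hi i).const_mul (c i)), Finset.mul_sum]
    refine Finset.sum_congr rfl fun i _ => ?_
    rw [integral_const_mul]
    unfold cenG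
    rw [← hV]
    field_simp
  -- second moment
  have f2 : ∫ x in K, (∑ i, c i * x i) ^ 2
      = V * (∑ i, ∑ j, c i * (covG K i j * c j) + (∑ i, c i * cenG K i) ^ 2) := by
    have hsq : ∀ x : ι → ℝ, (∑ i, c i * x i) ^ 2 = ∑ i, ∑ j, (c i * c j) * (x i * x j) := by
      intro x
      rw [sq, Finset.sum_mul_sum]
      refine Finset.sum_congr rfl fun i _ => Finset.sum_congr rfl fun j _ => ?_
      ring
    simp only [hsq]
    rw [integral_finsetSum _ (fun i _ => integrable_finsetSum _
      (fun j _ => (hij i j).const_mul (c i * c j)))]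
    have : ∀ i, ∫ x in K, ∑ j, (c i * c j) * (x i * x j)
        = ∑ j, (c i * c j) * (V * m2G K i j) := by
      intro i
      rw [integral_finsetSum _ (fun j _ => (hij i j).const_mul (c i * c j))]
      refine Finset.sum_congr rfl fun j _ => ?_
      rw [integral_const_mul]
      unfold m2G
      rw [← hV]
      field_simp
    simp only [this]
    have hcov : ∀ i j, covG K i j = m2G K i j - cenG K i * cenG K j :=
      fun i j => covG_eq K hK hv.ne' i j
    simp only [hcov]
    rw [← Finset.sum_add_distrib, Finset.mul_sum]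
    refine Finset.sum_congr rfl fun i _ => ?_
    rw [← Finset.sum_add_distrib, Finset.mul_sum]
    refine Finset.sum_congr rfl fun j _ => ?_
    ring
  rw [f1, f2] at hmb
  set B := ∑ i, c i * cenG K i with hB
  set S := ∑ i, ∑ j, c i * (covG K i j * c j) with hS
  have hV2 : 0 < V ^ 2 := by positivity
  have : V ^ 2 * B ^ 2 ≤ V ^ 2 * (n * (n + 2) * S) := by nlinarith
  exact le_of_mul_le_mul_left this hV2

end P254
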