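import Vale.Agent.Lib.P254c.FDefs

/-! # P254c unit F11: the covariance matrix of a compact set of positive volume is positive definite -/

namespace P254
open MeasureTheory
variable {ι : Type*} [Fintype ι] [DecidableEq ι]

/-- F11.  `covG_posSemidef`, `covG_quad`.  If `aᵀ Σ a = 0`, `a ≠ 0`, then `∑ a_i (x_i - b_i) = 0` for a.e. `x ∈ K`
(`setIntegral_eq_zero_iff_of_nonneg_ae`), so `K` lies a.e. in a proper affine subspace, a null set
(`Measure.addHaar_affineSubspace`, or `Measure.addHaar_submodule` after a translation), contradiction. -/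
theorem covG_posDef (K : Set (ι → ℝ)) (hK : IsCompact K) (hv : 0 < volG K) : (covG K).PosDef := by
  have hpsd := covG_posSemidef K hK
  refine Matrix.PosDef.of_dotProduct_mulVec_pos hpsd.isHermitian ?_
  intro a ha
  have h : star a ⬝ᵥ (covG K).mulVec a = ∑ i, ∑ j, a i * (covG K i j * a j) := by
    simp only [dotProduct, Matrix.mulVec, star_trivial, Finset.mul_sum]
  rw [h, covG_quad K hK a]
  refine div_pos ?_ hv
  have hcont : Continuous (fun x : ι → ℝ => (∑ i, a i * (x i - cenG K i)) ^ 2) := by fun_prop
  have hint : IntegrableOn (fun x : ι → ℝ => (∑ i, a i * (x i - cenG K i)) ^ 2) K :=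
    hcont.continuousOn.integrableOn_compact hK
  have hnn : 0 ≤ ∫ x in K, (∑ i, a i * (x i - cenG K i)) ^ 2 := integral_nonneg fun x => sq_nonneg _
  rcases hnn.lt_or_eq with hpos | hzero
  · exact hpos
  exfalso
  have hae := (setIntegral_eq_zero_iff_of_nonneg_ae
    (Filter.Eventually.of_forall fun x => sq_nonneg _) hint).mp hzero.symm
  -- the linear functional
  let L : (ι → ℝ) →ₗ[ℝ] ℝ := ∑ i, a i • LinearMap.proj i
  have hL : ∀ x, L x = ∑ i, a i * x i := by
    intro x
    simp [L, LinearMap.sum_apply]
  have hker : LinearMap.ker L ≠ ⊤ := by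
    intro htop
    have h1 : L a = 0 := by
      have : a ∈ LinearMap.ker L := by rw [htop]; trivial
      exact this
    rw [hL] at h1
    apply ha
    funext i
    have h2 := (Finset.sum_eq_zero_iff_of_nonneg (fun i _ => mul_self_nonneg (a i))).mp h1 i
      (Finset.mem_univ i)
    exact mul_self_eq_zero.mp h2
  have hnull : volume ((fun x => x + (-(cenG K))) ⁻¹' (LinearMap.ker L : Set (ι → ℝ))) = 0 := by
    rw [measure_preimage_add_right]
    exact Measure.addHaar_submodule volume _ hker
  have hK0 : volume K = 0 := by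
    have hsub : ∀ᵐ x ∂(volume.restrict K),
        x ∈ ((fun x => x + (-(cenG K))) ⁻¹' (LinearMap.ker L : Set (ι → ℝ))) := by
      filter_upwards [hae] with x hx
      simp only [Set.mem_preimage, SetLike.mem_coe, LinearMap.mem_ker, hL]
      have : (∑ i, a i * (x i - cenG K i)) = 0 := by
        simpa using hx
      simpa [sub_eq_add_neg] using this
    have h3 : volume.restrict K
        ((fun x => x + (-(cenG K))) ⁻¹' (LinearMap.ker L : Set (ι → ℝ)))ᶜ = 0 := hsub
    have h4 : volume.restrict K
        ((fun x => x + (-(cenG K))) ⁻¹' (LinearMap.ker L : Set (ι → ℝ))) = 0 :=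
      le_antisymm ((Measure.restrict_apply_le _ _).trans hnull.le) zero_le
    have h5 : volume.restrict K Set.univ = 0 := by
      rw [← Set.union_compl_self ((fun x => x + (-(cenG K))) ⁻¹' (LinearMap.ker L : Set (ι → ℝ)))]
      exact le_antisymm ((measure_union_le _ _).trans (by rw [h3, h4]; simp)) zero_le
    rwa [Measure.restrict_apply_univ] at h5
  unfold volG at hv
  rw [hK0] at hv
  simp at hv

end P254
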