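import Vale.Agent.Lib.P254c.FreeCov
import Vale.Agent.Lib.P254c.MomB
import Vale.Agent.Lib.P254c.PosDef
import Vale.Agent.Lib.P254c.FreeDetA
import Vale.Agent.Lib.P254c.FreeDetB
import Vale.Agent.Lib.P254c.FreeConst

/-! # P254 part 4: the conjectured inequality is preserved by free sums -/

namespace P254
open MeasureTheory
open scoped Pointwise

/-- the scalar inequality -/
theorem delta_le (n m s s' : ℝ) (hn : 0 ≤ n) (hm : 0 ≤ m) (hs : s ≤ n * (n + 2))
    (hs' : s' ≤ m * (m + 2)) :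
    1 + (m * (m + 2) * s + n * (n + 2) * s' - s * s') / ((n + m + 1) * (n + 2) * (m + 2))
      ≤ (n + 1) * (m + 1) / (n + m + 1) := by
  have h1 : 0 ≤ (n * (n + 2) - s) * (m * (m + 2) - s') :=
    mul_nonneg (by linarith) (by linarith)
  have hd : 0 < (n + m + 1) * (n + 2) * (m + 2) := by positivity
  have h2 : (m * (m + 2) * s + n * (n + 2) * s' - s * s') / ((n + m + 1) * (n + 2) * (m + 2))
      ≤ (n * m * (n + 2) * (m + 2)) / ((n + m + 1) * (n + 2) * (m + 2)) := by
    apply div_le_div_of_nonneg_right _ hd.le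
    nlinarith
  have h3 : 1 + (n * m * (n + 2) * (m + 2)) / ((n + m + 1) * (n + 2) * (m + 2))
      = (n + 1) * (m + 1) / (n + m + 1) := by
    have a1 : n + m + 1 ≠ 0 := by positivity
    have a2 : n + 2 ≠ 0 := by positivity
    have a3 : m + 2 ≠ 0 := by positivity
    field_simp
    ring
  linarith

section
variable {ι κ : Type*} [Fintype ι] [Fintype κ] [DecidableEq ι] [DecidableEq κ]

theorem det_covG_freeG_le (K : Set (ι → ℝ)) (K' : Set (κ → ℝ)) (hK : IsCompact K)
    (hK' : IsCompact K') (hc : Convex ℝ K) (hc' : Convex ℝ K') (h0 : (0 : ι → ℝ) ∈ K)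
    (h0' : (0 : κ → ℝ) ∈ K') (hv : 0 < volG K) (hv' : 0 < volG K') :
    (covG (freeG K K')).det
      ≤ (((Fintype.card ι : ℝ) + 1) * ((Fintype.card ι : ℝ) + 2)
          / (((Fintype.card ι : ℝ) + (Fintype.card κ : ℝ) + 1)
            * ((Fintype.card ι : ℝ) + (Fintype.card κ : ℝ) + 2))) ^ (Fintype.card ι)
        * (((Fintype.card κ : ℝ) + 1) * ((Fintype.card κ : ℝ) + 2)
          / (((Fintype.card ι : ℝ) + (Fintype.card κ : ℝ) + 1)
            * ((Fintype.card ι : ℝ) + (Fintype.card κ : ℝ) + 2))) ^ (Fintype.card κ)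
        * ((((Fintype.card ι : ℝ) + 1) * ((Fintype.card κ : ℝ) + 1))
          / ((Fintype.card ι : ℝ) + (Fintype.card κ : ℝ) + 1))
        * ((covG K).det * (covG K').det) := by
  set n : ℝ := (Fintype.card ι : ℝ) with hn
  set m : ℝ := (Fintype.card κ : ℝ) with hm
  have hn0 : 0 ≤ n := by rw [hn]; positivity
  have hm0 : 0 ≤ m := by rw [hm]; positivity
  have hS := covG_posDef K hK hv
  have hS' := covG_posDef K' hK' hv'
  have hd : 0 < (covG K).det := hS.det_pos
  have hd' : 0 < (covG K').det := hS'.det_pos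
  obtain ⟨-, s1⟩ := sQ_le (covG K) hS (cenG K) (n * (n + 2)) (by positivity)
    (fun c => cen_le_cov K hK hc h0 hv c)
  obtain ⟨-, s2⟩ := sQ_le (covG K') hS' (cenG K') (m * (m + 2)) (by positivity)
    (fun c => cen_le_cov K' hK' hc' h0' hv' c)
  rw [covG_freeG K K' hK hK' hc hc' h0 h0' hv hv',
    det_freeCovM n m hn0 hm0 _ _ hd.ne'.isUnit hd'.ne'.isUnit]
  have hΔ := delta_le n m _ _ hn0 hm0 s1 s2
  have hA : 0 ≤ ((n + 1) * (n + 2) / ((n + m + 1) * (n + m + 2))) ^ (Fintype.card ι)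
        * ((m + 1) * (m + 2) / ((n + m + 1) * (n + m + 2))) ^ (Fintype.card κ)
        * (covG K).det * (covG K').det := by positivity
  calc _ ≤ ((n + 1) * (n + 2) / ((n + m + 1) * (n + m + 2))) ^ (Fintype.card ι)
        * ((m + 1) * (m + 2) / ((n + m + 1) * (n + m + 2))) ^ (Fintype.card κ)
        * (covG K).det * (covG K').det * ((n + 1) * (m + 1) / (n + m + 1)) :=
        mul_le_mul_of_nonneg_left hΔ hA
    _ = _ := by ring

end

theorem isoPow_free_le {n m : ℕ} (K : Set (E n)) (K' : Set (E m)) (hK : IsCompact K)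
    (hK' : IsCompact K') (hc : Convex ℝ K) (hc' : Convex ℝ K') (h0 : (0 : E n) ∈ K)
    (h0' : (0 : E m) ∈ K') (hv : 0 < vol K) (hv' : 0 < vol K') :
    isoPow (free K K') / cN (n + m) ≤ (isoPow K / cN n) * (isoPow K' / cN m) := by
  have e1 : isoPow (free K K') = isoPowG (freeG K K') := by
    rw [← free_reindex, isoPowG_reindex]; rfl
  have hdet := det_covG_freeG_le K K' hK hK' hc hc' h0 h0' hv hv'
  have hvol := volG_freeG K K' hK hK' hc hc' h0 h0'
  have hcst := cN_free n m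
  simp only [Fintype.card_fin] at hdet hvol
  rw [e1]
  unfold isoPowG
  rw [hvol]
  have hvK : volG K = vol K := rfl
  have hvK' : volG K' = vol K' := rfl
  have hPK : isoPow K = (covG K).det / (volG K) ^ 2 := rfl
  have hPK' : isoPow K' = (covG K').det / (volG K') ^ 2 := rfl
  rw [hPK, hPK']
  set V0 : ℝ := ((n.factorial : ℝ) * (m.factorial : ℝ)) / ((n + m).factorial : ℝ) with hV0
  have hV0pos : 0 < V0 := by rw [hV0]; positivity
  have c1 := cN_pos' n
  have c2 := cN_pos' m
  have c3 := cN_pos' (n + m)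
  have hv1 : 0 < volG K := hv
  have hv2 : 0 < volG K' := hv'
  set A : ℝ := (((n : ℝ) + 1) * ((n : ℝ) + 2) / (((n : ℝ) + (m : ℝ) + 1) * ((n : ℝ) + (m : ℝ) + 2))) ^ n
      * (((m : ℝ) + 1) * ((m : ℝ) + 2) / (((n : ℝ) + (m : ℝ) + 1) * ((n : ℝ) + (m : ℝ) + 2))) ^ m
      * ((((n : ℝ) + 1) * ((m : ℝ) + 1)) / ((n : ℝ) + (m : ℝ) + 1)) with hA
  have hA' : A = cN (n + m) * V0 ^ 2 / (cN n * cN m) := by
    rw [eq_div_iff (by positivity)]; exact hcst
  rw [div_div, div_le_iff₀ (by positivity)]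
  calc (covG (freeG K K')).det ≤ A * ((covG K).det * (covG K').det) := hdet
    _ = _ := by
      rw [hA']
      field_simp

theorem vol_free {n m : ℕ} (K : Set (E n)) (K' : Set (E m)) (hK : IsCompact K)
    (hK' : IsCompact K') (hc : Convex ℝ K) (hc' : Convex ℝ K') (h0 : (0 : E n) ∈ K)
    (h0' : (0 : E m) ∈ K') :
    vol (free K K') = (((n.factorial : ℝ) * (m.factorial : ℝ)) / ((n + m).factorial : ℝ))
      * (vol K * vol K') := by
  have e1 : vol (free K K') = volG (freeG K K') := by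
    rw [← free_reindex, volG_reindex]; rfl
  rw [e1, volG_freeG K K' hK hK' hc hc' h0 h0']
  simp only [Fintype.card_fin]
  rfl

/-- Main theorem of part 4. -/
theorem main4 (n m : ℕ) (K : Set (E n)) (K' : Set (E m)) (hK : IsCompact K) (hK' : IsCompact K')
    (hc : Convex ℝ K) (hc' : Convex ℝ K') (h0 : (0 : E n) ∈ K) (h0' : (0 : E m) ∈ K')
    (hv : 0 < vol K) (hv' : 0 < vol K') :
    free K K' = convexHull ℝ ((fun x : E n => Fin.append x (0 : E m)) '' K ∪
      (fun y : E m => Fin.append (0 : E n) y) '' K') ∧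
    IsCompact (free K K') ∧ Convex ℝ (free K K') ∧ 0 < vol (free K K') ∧
    isoPow (free K K') / cN (n + m) ≤ (isoPow K / cN n) * (isoPow K' / cN m) ∧
    (1 ≤ n → 1 ≤ m → isoConst K ≤ simplexConst n → isoConst K' ≤ simplexConst m →
      isoConst (free K K') ≤ simplexConst (n + m)) := by
  have hF := isCompact_free K K' hK hK'
  have hle := isoPow_free_le K K' hK hK' hc hc' h0 h0' hv hv'
  refine ⟨free_eq_convexHull K K' hc hc' h0 h0', hF, convex_free K K' hc hc', ?_, hle, ?_⟩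
  · rw [vol_free K K' hK hK' hc hc' h0 h0']; positivity
  · intro hn hm h1 h2
    rw [isoConst_le_iff hn K hK] at h1
    rw [isoConst_le_iff hm K' hK'] at h2
    rw [isoConst_le_iff (by omega) _ hF]
    have a1 : isoPow K / cN n ≤ 1 := (div_le_one (cN_pos' n)).2 h1
    have a2 : isoPow K' / cN m ≤ 1 := (div_le_one (cN_pos' m)).2 h2
    have b2 : 0 ≤ isoPow K' / cN m := div_nonneg (isoPow_nonneg K' hK') (cN_pos' m).le
    have : isoPow (free K K') / cN (n + m) ≤ 1 := hle.trans (mul_le_one₀ a1 b2 a2)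
    exact (div_le_one (cN_pos' _)).1 this

end P254
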