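import Vale.Agent.Lib.P254c.FreeTop

/-! # P254c unit G1: the free sum of two simplices is the hull of at most `n + m + 2` points -/

namespace P254

theorem isLinearMap_appendL (n m : ℕ) :
    IsLinearMap ℝ (fun x : E n => Fin.append x (0 : E m)) := by
  constructor
  · intro x y
    funext i
    refine Fin.addCases (fun i => ?_) (fun i => ?_) i <;>
      simp [Fin.append_left, Fin.append_right]
  · intro a x
    funext i
    refine Fin.addCases (fun i => ?_) (fun i => ?_) i <;>
      simp [Fin.append_left, Fin.append_right]

theorem isLinearMap_appendR (n m : ℕ) :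
    IsLinearMap ℝ (fun y : E m => Fin.append (0 : E n) y) := by
  constructor
  · intro x y
    funext i
    refine Fin.addCases (fun i => ?_) (fun i => ?_) i <;>
      simp [Fin.append_left, Fin.append_right]
  · intro a x
    funext i
    refine Fin.addCases (fun i => ?_) (fun i => ?_) i <;>
      simp [Fin.append_left, Fin.append_right]

/-- G1.  By `free_eq_convexHull` the free sum is `conv (i '' conv (range b) ∪ i' '' conv (range b'))` with the linear maps
`i x = Fin.append x 0`, `i' y = Fin.append 0 y`; `i '' conv A = conv (i '' A)` (`LinearMap.image_convexHull` /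
`IsLinearMap.image_convexHull`), and `conv (conv A ∪ conv B) = conv (A ∪ B)` (`convexHull_convexHull_union_left`,
`convexHull_convexHull_union_right`).  Take `s = image (i ∘ b) univ ∪ image (i' ∘ b') univ` (`Finset.card_union_le`,
`Finset.card_image_le`). -/
theorem free_simplex_hull {n m : ℕ} (b : Fin (n + 1) → E n) (b' : Fin (m + 1) → E m)
    (h0 : (0 : E n) ∈ convexHull ℝ (Set.range b)) (h0' : (0 : E m) ∈ convexHull ℝ (Set.range b')) :
    ∃ s : Finset (E (n + m)), s.card ≤ n + m + 2 ∧
      free (convexHull ℝ (Set.range b)) (convexHull ℝ (Set.range b'))
        = convexHull ℝ (s : Set (E (n + m))) := by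
  classical
  refine ⟨Finset.univ.image (fun k => Fin.append (b k) (0 : E m)) ∪
    Finset.univ.image (fun k => Fin.append (0 : E n) (b' k)), ?_, ?_⟩
  · have h1 := Finset.card_union_le (Finset.univ.image (fun k => Fin.append (b k) (0 : E m)))
      (Finset.univ.image (fun k => Fin.append (0 : E n) (b' k)))
    have h2 : (Finset.univ.image (fun k => Fin.append (b k) (0 : E m))).card ≤ n + 1 := by
      have := Finset.card_image_le (s := (Finset.univ : Finset (Fin (n + 1))))
        (f := fun k => Fin.append (b k) (0 : E m))
      simpa using this
    have h3 : (Finset.univ.image (fun k => Fin.append (0 : E n) (b' k))).card ≤ m + 1 := by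
      have := Finset.card_image_le (s := (Finset.univ : Finset (Fin (m + 1))))
        (f := fun k => Fin.append (0 : E n) (b' k))
      simpa using this
    omega
  · rw [free_eq_convexHull _ _ (convex_convexHull ℝ _) (convex_convexHull ℝ _) h0 h0',
      (isLinearMap_appendL n m).image_convexHull, (isLinearMap_appendR n m).image_convexHull,
      convexHull_convexHull_union_left, convexHull_convexHull_union_right,
      Finset.coe_union, Finset.coe_image, Finset.coe_image, Finset.coe_univ, Finset.coe_univ,
      Set.image_univ, Set.image_univ, ← Set.range_comp, ← Set.range_comp]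
    rfl

end P254
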