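import Vale.Agent.Lib.P254c.Main4
import Vale.Agent.Lib.P254c.SimpF
import Vale.Agent.Lib.P254.Final

/-! # P254 part 4, continued: exact formula for free sums, and the equality clause -/

namespace P254
open MeasureTheory
open scoped Pointwise

theorem delta_ratio (n m s s' : ℝ) (hn : 0 ≤ n) (hm : 0 ≤ m) :
    1 + (m * (m + 2) * s + n * (n + 2) * s' - s * s') / ((n + m + 1) * (n + 2) * (m + 2))
      = (n + 1) * (m + 1) / (n + m + 1)
        * (1 - (n * (n + 2) - s) * (m * (m + 2) - s') / ((n + 1) * (n + 2) * (m + 1) * (m + 2))) := by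
  have a1 : n + m + 1 ≠ 0 := by positivity
  have a2 : n + 2 ≠ 0 := by positivity
  have a3 : m + 2 ≠ 0 := by positivity
  have a4 : n + 1 ≠ 0 := by positivity
  have a5 : m + 1 ≠ 0 := by positivity
  field_simp
  ring

/-- `(o - b_K)ᵀ Σ_K⁻¹ (o - b_K)` for `o = 0`. -/
noncomputable def sOrigin {n : ℕ} (K : Set (E n)) : ℝ := centroid K ⬝ᵥ ((cov K)⁻¹.mulVec (centroid K))

theorem sOrigin_bounds {n : ℕ} (K : Set (E n)) (hK : IsCompact K) (hc : Convex ℝ K) (h0 : (0 : E n) ∈ K)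
    (hv : 0 < vol K) : 0 ≤ sOrigin K ∧ sOrigin K ≤ (n : ℝ) * ((n : ℝ) + 2) := by
  have h := sQ_le (covG K) (covG_posDef K hK hv) (cenG K) ((n : ℝ) * ((n : ℝ) + 2)) (by positivity)
    (fun c => by
      have := cen_le_cov K hK hc h0 hv c
      simpa only [Fintype.card_fin] using this)
  exact h

theorem isoPow_free_eq {n m : ℕ} (K : Set (E n)) (K' : Set (E m)) (hK : IsCompact K)
    (hK' : IsCompact K') (hc : Convex ℝ K) (hc' : Convex ℝ K') (h0 : (0 : E n) ∈ K)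
    (h0' : (0 : E m) ∈ K') (hv : 0 < vol K) (hv' : 0 < vol K') :
    isoPow (free K K') / cN (n + m) = (isoPow K / cN n) * (isoPow K' / cN m)
      * (1 - ((n : ℝ) * ((n : ℝ) + 2) - sOrigin K) * ((m : ℝ) * ((m : ℝ) + 2) - sOrigin K')
          / (((n : ℝ) + 1) * ((n : ℝ) + 2) * ((m : ℝ) + 1) * ((m : ℝ) + 2))) := by
  have e1 : isoPow (free K K') = isoPowG (freeG K K') := by
    rw [← free_reindex, isoPowG_reindex]; rfl
  have hS := covG_posDef K hK hv
  have hS' := covG_posDef K' hK' hv'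
  have hd : 0 < (covG K).det := hS.det_pos
  have hd' : 0 < (covG K').det := hS'.det_pos
  have hdet := det_freeCovM (Fintype.card (Fin n) : ℝ) (Fintype.card (Fin m) : ℝ) (by positivity)
    (by positivity) (covG K) (covG K') hd.ne'.isUnit hd'.ne'.isUnit (cenG K) (cenG K')
  rw [← covG_freeG K K' hK hK' hc hc' h0 h0' hv hv'] at hdet
  have hvol := volG_freeG K K' hK hK' hc hc' h0 h0'
  have hcst := cN_free n m
  simp only [Fintype.card_fin] at hdet hvol
  rw [delta_ratio _ _ _ _ (by positivity) (by positivity)] at hdet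
  rw [e1]
  unfold isoPowG
  rw [hvol, hdet]
  have hPK : isoPow K = (covG K).det / (volG K) ^ 2 := rfl
  have hPK' : isoPow K' = (covG K').det / (volG K') ^ 2 := rfl
  have hs : sOrigin K = cenG K ⬝ᵥ ((covG K)⁻¹.mulVec (cenG K)) := rfl
  have hs' : sOrigin K' = cenG K' ⬝ᵥ ((covG K')⁻¹.mulVec (cenG K')) := rfl
  rw [hPK, hPK', hs, hs']
  set R : ℝ := (1 - ((n : ℝ) * ((n : ℝ) + 2) - cenG K ⬝ᵥ ((covG K)⁻¹.mulVec (cenG K)))
      * ((m : ℝ) * ((m : ℝ) + 2) - cenG K' ⬝ᵥ ((covG K')⁻¹.mulVec (cenG K')))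
          / (((n : ℝ) + 1) * ((n : ℝ) + 2) * ((m : ℝ) + 1) * ((m : ℝ) + 2))) with hR
  set V0 : ℝ := ((n.factorial : ℝ) * (m.factorial : ℝ)) / ((n + m).factorial : ℝ) with hV0
  have hV0pos : 0 < V0 := by rw [hV0]; positivity
  have c1 := cN_pos' n
  have c2 := cN_pos' m
  have c3 := cN_pos' (n + m)
  have hv1 : 0 < volG K := hv
  have hv2 : 0 < volG K' := hv'
  set a : ℝ := (((n : ℝ) + 1) * ((n : ℝ) + 2) / (((n : ℝ) + (m : ℝ) + 1) * ((n : ℝ) + (m : ℝ) + 2))) ^ n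
    with ha
  set b : ℝ := (((m : ℝ) + 1) * ((m : ℝ) + 2) / (((n : ℝ) + (m : ℝ) + 1) * ((n : ℝ) + (m : ℝ) + 2))) ^ m
    with hb
  set d : ℝ := (((n : ℝ) + 1) * ((m : ℝ) + 1)) / ((n : ℝ) + (m : ℝ) + 1) with hdd
  have hA' : a * b * d = cN (n + m) * V0 ^ 2 / (cN n * cN m) := by
    rw [eq_div_iff (by positivity)]; exact hcst
  have : a * b * (covG K).det * (covG K').det * (d * R)
      = (a * b * d) * ((covG K).det * (covG K').det * R) := by ring
  rw [this, hA']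
  field_simp

theorem strong_free {n m : ℕ} (hn : 1 ≤ n) (hm : 1 ≤ m) (K : Set (E n)) (K' : Set (E m))
    (hK : IsCompact K) (hK' : IsCompact K') (hc : Convex ℝ K) (hc' : Convex ℝ K')
    (h0 : (0 : E n) ∈ K) (h0' : (0 : E m) ∈ K') (hv : 0 < vol K) (hv' : 0 < vol K')
    (h : Strong K) (h' : Strong K') : Strong (free K K') := by
  obtain ⟨-, hF, hFc, hFv, hle, hcl⟩ := main4 n m K K' hK hK' hc hc' h0 h0' hv hv'
  refine ⟨hcl hn hm h.1 h'.1, ?_⟩
  intro heq
  have h1 := (isoConst_le_iff hn K hK).1 h.1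
  have h2 := (isoConst_le_iff hm K' hK').1 h'.1
  have a1 : isoPow K / cN n ≤ 1 := (div_le_one (cN_pos' n)).2 h1
  have a2 : isoPow K' / cN m ≤ 1 := (div_le_one (cN_pos' m)).2 h2
  have b1 : 0 ≤ isoPow K / cN n := div_nonneg (isoPow_nonneg K hK) (cN_pos' n).le
  have b2 : 0 ≤ isoPow K' / cN m := div_nonneg (isoPow_nonneg K' hK') (cN_pos' m).le
  have heq' := (isoConst_eq_iff (by omega) _ hF).1 heq
  have hone : 1 ≤ (isoPow K / cN n) * (isoPow K' / cN m) := by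
    rw [heq', div_self (cN_pos' _).ne'] at hle; exact hle
  have c1 : isoPow K / cN n = 1 := by
    refine le_antisymm a1 ?_
    by_contra hlt
    rw [not_le] at hlt
    have : (isoPow K / cN n) * (isoPow K' / cN m) < 1 := by
      calc (isoPow K / cN n) * (isoPow K' / cN m) ≤ (isoPow K / cN n) * 1 :=
            mul_le_mul_of_nonneg_left a2 b1
        _ < 1 := by simpa using hlt
    linarith
  have c2 : isoPow K' / cN m = 1 := by
    rw [c1, one_mul] at hone; exact le_antisymm a2 hone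
  have d1 : isoPow K = cN n := (div_eq_one_iff_eq (cN_pos' n).ne').1 c1
  have d2 : isoPow K' = cN m := (div_eq_one_iff_eq (cN_pos' m).ne').1 c2
  obtain ⟨b, -, rfl⟩ := h.2 ((isoConst_eq_iff hn K hK).2 d1)
  obtain ⟨b', -, rfl⟩ := h'.2 ((isoConst_eq_iff hm K' hK').2 d2)
  obtain ⟨s, hs, hfs⟩ := free_simplex_hull b b' h0 h0'
  have hint : (interior (free (convexHull ℝ (Set.range b)) (convexHull ℝ (Set.range b')))).Nonempty :=
    (interior_nonempty_iff_vol_pos _ hF hFc).2 hFv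
  rw [hfs] at hint heq ⊢
  exact ((main (n + m) (by omega)).2 s hs hint).2 heq

/-- Main theorem on free sums. -/
theorem main5 (n m : ℕ) (K : Set (E n)) (K' : Set (E m)) (hK : IsCompact K) (hK' : IsCompact K')
    (hc : Convex ℝ K) (hc' : Convex ℝ K') (h0 : (0 : E n) ∈ K) (h0' : (0 : E m) ∈ K')
    (hv : 0 < vol K) (hv' : 0 < vol K') :
    free K K' = convexHull ℝ ((fun x : E n => Fin.append x (0 : E m)) '' K ∪
      (fun y : E m => Fin.append (0 : E n) y) '' K') ∧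
    IsCompact (free K K') ∧ Convex ℝ (free K K') ∧ 0 < vol (free K K') ∧
    (0 ≤ sOrigin K ∧ sOrigin K ≤ (n : ℝ) * ((n : ℝ) + 2)) ∧ (0 ≤ sOrigin K' ∧ sOrigin K' ≤ (m : ℝ) * ((m : ℝ) + 2)) ∧
    isoPow (free K K') / cN (n + m) = (isoPow K / cN n) * (isoPow K' / cN m)
      * (1 - ((n : ℝ) * ((n : ℝ) + 2) - sOrigin K) * ((m : ℝ) * ((m : ℝ) + 2) - sOrigin K')
          / (((n : ℝ) + 1) * ((n : ℝ) + 2) * ((m : ℝ) + 1) * ((m : ℝ) + 2))) ∧
    isoPow (free K K') / cN (n + m) ≤ (isoPow K / cN n) * (isoPow K' / cN m) ∧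
    (1 ≤ n → 1 ≤ m → isoConst K ≤ simplexConst n → isoConst K' ≤ simplexConst m →
      isoConst (free K K') ≤ simplexConst (n + m)) ∧
    (1 ≤ n → 1 ≤ m → Strong K → Strong K' → Strong (free K K')) := by
  obtain ⟨g1, g2, g3, g4, g5, g6⟩ := main4 n m K K' hK hK' hc hc' h0 h0' hv hv'
  exact ⟨g1, g2, g3, g4, sOrigin_bounds K hK hc h0 hv, sOrigin_bounds K' hK' hc' h0' hv',
    isoPow_free_eq K K' hK hK' hc hc' h0 h0' hv hv', g5, g6,
    fun hn hm h h' => strong_free hn hm K K' hK hK' hc hc' h0 h0' hv hv' h h'⟩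

end P254
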