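import Vale.Agent.Lib.P254c.Seg

/-! # P254c unit H2: segments in `ℝ^1` are compact, convex, of positive volume -/

namespace P254
open MeasureTheory

theorem seg_eq_Icc (a b : ℝ) : seg a b = Set.Icc (fun _ => a) (fun _ => b) := by
  ext x
  constructor
  · rintro ⟨h1, h2⟩
    refine ⟨fun i => ?_, fun i => ?_⟩
    · rw [Subsingleton.elim i 0]; exact h1
    · rw [Subsingleton.elim i 0]; exact h2
  · rintro ⟨h1, h2⟩
    exact ⟨h1 0, h2 0⟩

/-- H2a. `seg a b = Set.Icc (fun _ => a) (fun _ => b)` (`isCompact_Icc`). -/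
theorem isCompact_seg (a b : ℝ) : IsCompact (seg a b) := by
  rw [seg_eq_Icc]
  exact isCompact_Icc

/-- H2b. -/
theorem convex_seg (a b : ℝ) : Convex ℝ (seg a b) := by
  rw [seg_eq_Icc]
  exact convex_Icc _ _

/-- H2c. `Real.volume_Icc_pi` gives `volume = ofReal (b - a)`. -/
theorem vol_seg_pos (a b : ℝ) (hab : a < b) : 0 < vol (seg a b) := by
  unfold vol
  rw [seg_eq_Icc, Real.volume_Icc_pi]
  simp only [Finset.univ_unique, Finset.prod_singleton]
  rw [ENNReal.toReal_ofReal (by linarith)]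
  linarith

end P254
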