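import Vale.Agent.Lib.P254c.Main5
import Vale.Agent.Lib.P254c.Seg2

/-! # P254: pyramids, prisms and bipyramids over bodies of a dimension in which the conjecture holds -/

namespace P254
open MeasureTheory

theorem strong_seg (a b : ℝ) (hab : a < b) : Strong (seg a b) :=
  ⟨((main 1 le_rfl).1 _ (isSimplex_seg a b hab)).le, fun _ => isSimplex_seg a b hab⟩

/-- If the conjecture holds in dimension `n`, it holds for all pyramids, prisms and bipyramids over
`n`-dimensional convex bodies. -/
theorem main6 (n : ℕ) (hn : 1 ≤ n) (h : StrongConj n) (K : Set (E n)) (hK : IsCompact K)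
    (hc : Convex ℝ K) (hint : (interior K).Nonempty) :
    Strong (pyramid K) ∧
    (∀ a b : ℝ, a < b → isoConst (prod K (seg a b)) < simplexConst (n + 1)) ∧
    ((0 : E n) ∈ K → ∀ a b : ℝ, a ≤ 0 → 0 ≤ b → a < b → Strong (free K (seg a b))) := by
  have hv : 0 < vol K := (interior_nonempty_iff_vol_pos K hK hc).1 hint
  have hS : Strong K := h K hK hc hint
  refine ⟨(strong_pyramid_iff hn K hK hint hv).2 hS, ?_, ?_⟩
  · intro a b hab
    exact (main2.2.2 n 1 K (seg a b) hK (isCompact_seg a b) hv (vol_seg_pos a b hab)).2.2.2.2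
      hn le_rfl hS.1 (strong_seg a b hab).1
  · intro h0 a b ha hb hab
    have h0' : (0 : E 1) ∈ seg a b := ⟨ha, hb⟩
    exact strong_free hn le_rfl K (seg a b) hK (isCompact_seg a b) hc (convex_seg a b) h0 h0' hv
      (vol_seg_pos a b hab) hS (strong_seg a b hab)

end P254
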