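import Vale.Agent.Lib.P254c.FDefs

/-! # P254c unit F3: the fibres of a pyramid over a convex set containing `0` are intervals `[0, a]` -/

namespace P254
open MeasureTheory
open scoped Pointwise
variable {ι : Type*} [Fintype ι]

/-- the set of dilation factors `c ∈ [0,1]` with `w ∈ c • K` -/
def dilU (K : Set (ι → ℝ)) (w : ι → ℝ) : Set ℝ := {c | 0 ≤ c ∧ c ≤ 1 ∧ w ∈ c • K}

theorem smul_subset_smul_U (K : Set (ι → ℝ)) (hc : Convex ℝ K) (h0 : (0 : ι → ℝ) ∈ K) {c c' : ℝ}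
    (h : 0 ≤ c) (hcc : c ≤ c') : c • K ⊆ c' • K := by
  rintro _ ⟨k, hk, rfl⟩
  rcases (h.trans hcc).eq_or_lt with h1 | h1
  · have hc0 : c = 0 := le_antisymm (h1 ▸ hcc) h
    exact ⟨k, hk, by simp [hc0, ← h1]⟩
  · refine ⟨(c / c') • k, hc.smul_mem_of_zero_mem h0 hk ⟨by positivity, ?_⟩, ?_⟩
    · rw [div_le_one h1]; exact hcc
    · simp only [smul_smul]
      rw [mul_div_cancel₀ _ h1.ne']

theorem isCompact_dilU (K : Set (ι → ℝ)) (hK : IsCompact K) (w : ι → ℝ) : IsCompact (dilU K w) := by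
  have h1 : IsCompact ((Set.Icc (0 : ℝ) 1 ×ˢ K) ∩ {p : ℝ × (ι → ℝ) | p.1 • p.2 = w}) :=
    (isCompact_Icc.prod hK).inter_right
      (isClosed_singleton.preimage (continuous_fst.smul continuous_snd))
  have h2 : dilU K w = Prod.fst '' ((Set.Icc (0 : ℝ) 1 ×ˢ K) ∩ {p : ℝ × (ι → ℝ) | p.1 • p.2 = w}) := by
    ext c
    constructor
    · rintro ⟨h0, h1, k, hk, hw⟩
      exact ⟨(c, k), ⟨⟨⟨h0, h1⟩, hk⟩, hw⟩, rfl⟩
    · rintro ⟨⟨c', k⟩, ⟨⟨⟨h0, h1⟩, hk⟩, hw⟩, rfl⟩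
      exact ⟨h0, h1, k, hk, hw⟩
  rw [h2]
  exact h1.image continuous_fst

theorem dilU_struct (K : Set (ι → ℝ)) (hK : IsCompact K) (hc : Convex ℝ K) (h0 : (0 : ι → ℝ) ∈ K)
    (w : ι → ℝ) : dilU K w = ∅ ∨ ∃ γ : ℝ, 0 ≤ γ ∧ γ ≤ 1 ∧ dilU K w = Set.Icc γ 1 := by
  rcases (dilU K w).eq_empty_or_nonempty with h | h
  · exact Or.inl h
  · right
    have hmem : sInf (dilU K w) ∈ dilU K w := (isCompact_dilU K hK w).sInf_mem h
    refine ⟨sInf (dilU K w), hmem.1, hmem.2.1, ?_⟩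
    ext c
    constructor
    · intro hcU
      exact ⟨csInf_le (isCompact_dilU K hK w).bddBelow hcU, hcU.2.1⟩
    · rintro ⟨h1, h2⟩
      exact ⟨hmem.1.trans h1, h2, smul_subset_smul_U K hc h0 hmem.1 h1 hmem.2.2⟩

theorem mem_secP_iff (K : Set (ι → ℝ)) (w : ι → ℝ) (t : ℝ) : t ∈ secP K w ↔ 1 - t ∈ dilU K w := by
  unfold secP dilU
  simp only [Set.mem_ofPred_eq]
  constructor
  · rintro ⟨h1, h2, h3⟩
    exact ⟨by linarith, by linarith, h3⟩
  · rintro ⟨h1, h2, h3⟩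
    exact ⟨by linarith, by linarith, h3⟩

/-- F3a.  `(1-t) • K ⊆ K` for `0 ≤ t ≤ 1` (`Convex.smul_mem_of_zero_mem`). -/
theorem secP_empty (K : Set (ι → ℝ)) (hc : Convex ℝ K) (h0 : (0 : ι → ℝ) ∈ K) (w : ι → ℝ)
    (hw : w ∉ K) : secP K w = ∅ := by
  rw [Set.eq_empty_iff_forall_notMem]
  rintro t ⟨h1, h2, h3⟩
  have := smul_subset_smul_U K hc h0 (by linarith : (0 : ℝ) ≤ 1 - t) (by linarith : 1 - t ≤ 1) h3
  rw [one_smul] at this
  exact hw this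

/-- F3b.  `secP K w` contains `0`, is closed (a fibre of the compact set `{(w,t)}`), bounded by `1` and
downward closed in `[0,1]` (`(1-t) • K ⊆ (1-t') • K` for `t' ≤ t`), hence equals `Icc 0 (sSup _)`; then
`Real.volume_Icc`. -/
theorem secP_eq (K : Set (ι → ℝ)) (hK : IsCompact K) (hc : Convex ℝ K) (h0 : (0 : ι → ℝ) ∈ K)
    (w : ι → ℝ) (hw : w ∈ K) :
    secP K w = Set.Icc 0 (aP K w) ∧ 0 ≤ aP K w ∧ aP K w ≤ 1 := by
  have h1 : (1 : ℝ) ∈ dilU K w := ⟨zero_le_one, le_refl _, by rw [one_smul]; exact hw⟩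
  rcases dilU_struct K hK hc h0 w with h | ⟨γ, hγ0, hγ1, h⟩
  · rw [h] at h1
    exact absurd h1 (Set.notMem_empty _)
  · have hs : secP K w = Set.Icc 0 (1 - γ) := by
      ext t
      rw [mem_secP_iff, h, Set.mem_Icc, Set.mem_Icc]
      constructor
      · rintro ⟨a, b⟩
        exact ⟨by linarith, by linarith⟩
      · rintro ⟨a, b⟩
        exact ⟨by linarith, by linarith⟩
    have ha : aP K w = 1 - γ := by
      unfold aP
      rw [hs, Real.volume_Icc, ENNReal.toReal_ofReal (by linarith)]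
      ring
    rw [ha]
    exact ⟨hs, by linarith, by linarith⟩

end P254
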