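import Vale.Agent.Lib.P254c.FreeInt
import Vale.Agent.Lib.P254c.SecP

/-! # P254c unit F9a/F9b: integrals against `aP K` (`= 1 - gauge`) -/

namespace P254
open MeasureTheory
open scoped Pointwise
variable {ι : Type*} [Fintype ι]

theorem aP_eq_zero (K : Set (ι → ℝ)) (hc : Convex ℝ K) (h0 : (0 : ι → ℝ) ∈ K) (w : ι → ℝ)
    (hw : w ∉ K) : aP K w = 0 := by
  unfold aP
  rw [secP_empty K hc h0 w hw]
  simp

/-- F9a.  `swapP K g 1`, `pyr_eval K g d 0`; `∫ t in secP K w, 1 = aP K w`; the integrand vanishes off `K`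
(`secP_empty`), so `∫ w, … = ∫ w in K, …` (`setIntegral_eq_integral_of_forall_compl_eq_zero`). -/
theorem integral_mul_aP (K : Set (ι → ℝ)) (hK : IsCompact K) (hc : Convex ℝ K)
    (h0 : (0 : ι → ℝ) ∈ K) (g : (ι → ℝ) → ℝ) (d : ℕ) (hg : Continuous g)
    (hgd : ∀ (s : ℝ) (x : ι → ℝ), g (s • x) = s ^ d * g x) :
    ∫ w in K, g w * aP K w = (∫ w in K, g w) / ((Fintype.card ι : ℝ) + d + 1) := by
  have h1 := swapP K hK g (fun _ => 1) hg continuous_const
  have h2 := pyr_eval K g d 0 hgd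
  have h3 : ∀ w, (∫ _t in secP K w, (1 : ℝ)) = aP K w := by
    intro w
    rw [setIntegral_const]
    simp [aP, Measure.real]
  simp only [h3] at h1
  simp only [pow_zero] at h2
  rw [h1] at h2
  rw [setIntegral_eq_integral_of_forall_compl_eq_zero
    (fun w hw => by rw [aP_eq_zero K hc h0 w hw, mul_zero]), h2]
  have h4 : ((0 + (Fintype.card ι + d) + 1).factorial : ℝ)
      = ((Fintype.card ι : ℝ) + d + 1) * ((Fintype.card ι + d).factorial : ℝ) := by
    rw [zero_add, Nat.factorial_succ]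
    push_cast
    ring
  have h5 : ((Fintype.card ι + d).factorial : ℝ) ≠ 0 := by positivity
  have h6 : ((Fintype.card ι : ℝ) + d + 1) ≠ 0 := by positivity
  rw [h4]
  simp only [Nat.factorial_zero, Nat.cast_one, one_mul]
  field_simp

/-- F9b.  `swapP K 1 (fun t => t)`, `pyr_eval K 1 0 1`; on `K`: `∫ t in Icc 0 a, t = a^2/2` (`secP_eq`). -/
theorem integral_aP_sq (K : Set (ι → ℝ)) (hK : IsCompact K) (hc : Convex ℝ K)
    (h0 : (0 : ι → ℝ) ∈ K) :
    ∫ w in K, (aP K w) ^ 2
      = 2 * volG K / (((Fintype.card ι : ℝ) + 1) * ((Fintype.card ι : ℝ) + 2)) := by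
  have h1 := swapP K hK (fun _ => 1) (fun t => t) continuous_const continuous_id
  have h2 := pyr_eval K (fun _ => (1 : ℝ)) 0 1 (by intro s x; simp)
  have h3 : ∀ w, (1 : ℝ) * (∫ t in secP K w, t) = (aP K w) ^ 2 / 2 := by
    intro w
    by_cases hw : w ∈ K
    · obtain ⟨e1, e2, _⟩ := secP_eq K hK hc h0 w hw
      rw [one_mul, e1, integral_Icc_eq_integral_Ioc, ← intervalIntegral.integral_of_le e2,
        integral_id]
      ring
    · rw [secP_empty K hc h0 w hw, aP_eq_zero K hc h0 w hw]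
      simp
  simp only [h3] at h1
  simp only [pow_one] at h2
  rw [h1] at h2
  have h7 : ∫ w in K, (aP K w) ^ 2 / 2 = ∫ w, (aP K w) ^ 2 / 2 :=
    setIntegral_eq_integral_of_forall_compl_eq_zero
      (fun w hw => by rw [aP_eq_zero K hc h0 w hw]; simp)
  rw [← h7, integral_div] at h2
  rw [← volG_eq_integral_one] at h2
  have h4 : ((1 + (Fintype.card ι + 0) + 1).factorial : ℝ)
      = ((Fintype.card ι : ℝ) + 1) * ((Fintype.card ι : ℝ) + 2) * ((Fintype.card ι + 0).factorial : ℝ) := by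
    have : 1 + (Fintype.card ι + 0) + 1 = (Fintype.card ι + 1) + 1 := by ring
    rw [this, Nat.factorial_succ, Nat.factorial_succ]
    push_cast
    ring_nf
  have h5 : ((Fintype.card ι + 0).factorial : ℝ) ≠ 0 := by positivity
  have h6 : ((Fintype.card ι : ℝ) + 1) ≠ 0 := by positivity
  have h8 : ((Fintype.card ι : ℝ) + 2) ≠ 0 := by positivity
  rw [h4] at h2
  simp only [Nat.factorial_one, Nat.cast_one, one_mul] at h2
  have h9 : ∫ w in K, (aP K w) ^ 2 = 2 * ((∫ w in K, (aP K w) ^ 2) / 2) := by ring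
  rw [h9, h2]
  field_simp

end P254
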