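import Vale.Agent.Lib.P254c.FDefs

/-! # P254c units H1, H2: segments in `ℝ^1` -/

namespace P254
open MeasureTheory

/-- The segment `[a, b]` in `ℝ^1`. -/
def seg (a b : ℝ) : Set (E 1) := {x | a ≤ x 0 ∧ x 0 ≤ b}

/-- H1.  Vertices `![fun _ => a, fun _ => b]`; affine independence of two distinct points
(`affineIndependent_of_ne`); `convexHull_pair`/`segment_eq_image` or `mem_hull_range_iff_D` (P254b/SimpD.lean);
`x : E 1` is determined by `x 0` (`funext`, `Fin.eq_zero`/`Subsingleton.elim`). -/
theorem isSimplex_seg (a b : ℝ) (hab : a < b) : IsSimplex (seg a b) := by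
  have hne : (fun _ => a : E 1) ≠ (fun _ => b : E 1) := by
    intro h
    have h0 : a = b := congrFun h 0
    linarith
  refine ⟨![fun _ => a, fun _ => b], affineIndependent_of_ne ℝ hne, ?_⟩
  have hr : Set.range (![fun _ => a, fun _ => b] : Fin 2 → E 1)
      = {(fun _ => a : E 1), (fun _ => b : E 1)} := by
    ext x
    simp
    exact or_comm
  rw [hr, convexHull_pair]
  ext x
  constructor
  · rintro ⟨h1, h2⟩
    have hba : 0 < b - a := by linarith
    refine ⟨(b - x 0) / (b - a), (x 0 - a) / (b - a), div_nonneg (by linarith) hba.le,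
      div_nonneg (by linarith) hba.le, ?_, ?_⟩
    · field_simp
      ring
    · funext i
      rw [Subsingleton.elim i 0]
      simp only [Pi.add_apply, Pi.smul_apply, smul_eq_mul]
      field_simp
      ring
  · rintro ⟨s, t, hs, ht, hst, rfl⟩
    simp only [seg, Set.mem_ofPred_eq, Pi.add_apply, Pi.smul_apply, smul_eq_mul]
    have hs' : s = 1 - t := by linarith
    subst hs'
    constructor
    · nlinarith
    · nlinarith

end P254
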