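import Vale.Agent.Lib.P254c.FDefs

/-! # P254c unit F1: Fubini for the pyramid, both orders -/

namespace P254
open MeasureTheory
open scoped Pointwise
variable {ι : Type*} [Fintype ι]

/-- the pyramid as a subset of `(ι → ℝ) × ℝ` -/
def pyrS (K : Set (ι → ℝ)) : Set ((ι → ℝ) × ℝ) :=
  {p | 0 ≤ p.2 ∧ p.2 ≤ 1 ∧ p.1 ∈ (1 - p.2) • K}

theorem isCompact_pyrS (K : Set (ι → ℝ)) (hK : IsCompact K) : IsCompact (pyrS K) := by
  have himg : pyrS K = (fun q : (ι → ℝ) × ℝ => ((1 - q.2) • q.1, q.2)) ''
      (K ×ˢ Set.Icc (0 : ℝ) 1) := by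
    ext p
    constructor
    · rintro ⟨h0, h1, x, hx, hxp⟩
      exact ⟨(x, p.2), ⟨hx, h0, h1⟩, Prod.ext hxp rfl⟩
    · rintro ⟨⟨x, t⟩, ⟨hx, h0, h1⟩, rfl⟩
      exact ⟨h0, h1, x, hx, rfl⟩
  rw [himg]
  exact (hK.prod isCompact_Icc).image (by fun_prop)

theorem secP_eq_preimage (K : Set (ι → ℝ)) (w : ι → ℝ) : secP K w = Prod.mk w ⁻¹' pyrS K := rfl

theorem measurableSet_secP (K : Set (ι → ℝ)) (hK : IsCompact K) (w : ι → ℝ) :
    MeasurableSet (secP K w) := by
  rw [secP_eq_preimage]
  exact ((isCompact_pyrS K hK).isClosed.preimage (by fun_prop)).measurableSet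

/-- F1.  `S = {(w, t) | 0 ≤ t ≤ 1, w ∈ (1-t) • K}` is compact (continuous image of `K × [0,1]`), so
`S.indicator (Φ w * χ t)` is integrable on `(ι → ℝ) × ℝ`; apply `integral_prod` and
`integral_prod_symm` (compare the proof of `joinG_fubini` in `P254b/JoinInt.lean`). -/
theorem swapP (K : Set (ι → ℝ)) (hK : IsCompact K) (Φ : (ι → ℝ) → ℝ) (χ : ℝ → ℝ)
    (hΦ : Continuous Φ) (hχ : Continuous χ) :
    ∫ t in (0 : ℝ)..1, χ t * (∫ x in (1 - t) • K, Φ x)
      = ∫ w, Φ w * (∫ t in secP K w, χ t) := by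
  classical
  set F : (ι → ℝ) × ℝ → ℝ := fun p => Φ p.1 * χ p.2 with hF
  have hFc : Continuous F := by fun_prop
  have hSc := isCompact_pyrS K hK
  have hint : Integrable ((pyrS K).indicator F)
      ((volume : Measure (ι → ℝ)).prod (volume : Measure ℝ)) :=
    (integrable_indicator_iff hSc.measurableSet).2 (hFc.continuousOn.integrableOn_compact hSc)
  have h1 : ∫ p, (pyrS K).indicator F p ∂((volume : Measure (ι → ℝ)).prod (volume : Measure ℝ))
      = ∫ w, ∫ t, (pyrS K).indicator F (w, t) := integral_prod _ hint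
  have h2 : ∫ p, (pyrS K).indicator F p ∂((volume : Measure (ι → ℝ)).prod (volume : Measure ℝ))
      = ∫ t, ∫ w, (pyrS K).indicator F (w, t) := integral_prod_symm _ hint
  have h3 : ∀ w : ι → ℝ, ∫ t, (pyrS K).indicator F (w, t) = Φ w * (∫ t in secP K w, χ t) := by
    intro w
    have hfun : (fun t : ℝ => (pyrS K).indicator F (w, t))
        = (secP K w).indicator (fun t => Φ w * χ t) := by
      funext t
      by_cases ht : t ∈ secP K w
      · rw [Set.indicator_of_mem ht, Set.indicator_of_mem (show (w, t) ∈ pyrS K from ht)]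
      · rw [Set.indicator_of_notMem ht, Set.indicator_of_notMem (show (w, t) ∉ pyrS K from ht)]
    rw [hfun, integral_indicator (measurableSet_secP K hK w), integral_const_mul]
  have h4 : ∀ t : ℝ, ∫ w, (pyrS K).indicator F (w, t)
      = (Set.Icc (0 : ℝ) 1).indicator (fun t => χ t * (∫ x in (1 - t) • K, Φ x)) t := by
    intro t
    by_cases ht : t ∈ Set.Icc (0 : ℝ) 1
    · rw [Set.indicator_of_mem ht]
      have hfun : (fun w : ι → ℝ => (pyrS K).indicator F (w, t))
          = ((1 - t) • K).indicator (fun w => Φ w * χ t) := by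
        funext w
        by_cases hw : w ∈ (1 - t) • K
        · rw [Set.indicator_of_mem hw,
            Set.indicator_of_mem (show (w, t) ∈ pyrS K from ⟨ht.1, ht.2, hw⟩)]
        · rw [Set.indicator_of_notMem hw,
            Set.indicator_of_notMem (show (w, t) ∉ pyrS K from fun h => hw h.2.2)]
      rw [hfun, integral_indicator (hK.smul (1 - t)).measurableSet, integral_mul_const, mul_comm]
    · rw [Set.indicator_of_notMem ht]
      have hfun : (fun w : ι → ℝ => (pyrS K).indicator F (w, t)) = 0 := by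
        funext w
        rw [Set.indicator_of_notMem (show (w, t) ∉ pyrS K from fun h => ht ⟨h.1, h.2.1⟩)]
        rfl
      rw [hfun]; simp
  simp only [h3] at h1
  simp only [h4] at h2
  rw [← h1, h2, integral_indicator measurableSet_Icc, integral_Icc_eq_integral_Ioc,
    intervalIntegral.integral_of_le zero_le_one]

/-- F1'.  `w ↦ volume (secP K w)` is measurable (`measurable_measure_prodMk_left` for the closed set `S`). -/
theorem measurable_aP (K : Set (ι → ℝ)) (hK : IsCompact K) : Measurable (aP K) := by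
  have h := measurable_measure_prodMk_left (ν := (volume : Measure ℝ))
    (isCompact_pyrS K hK).measurableSet
  exact h.ennreal_toReal

end P254
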